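import Vale.Agent.P170.Kill

/-!
Basic definitions for the interpolation upper bound on the random `k`-SAT threshold.
-/

namespace Vale.Agent.P170

open Finset

/-- averaging over which counter is incremented -/
noncomputable def cavg {L : Type} [Fintype L] [DecidableEq L] (F : (L → ℕ) → ℝ) :
    (L → ℕ) → ℝ :=
  fun a => (∑ l : L, F (a + Pi.single l 1)) / (Fintype.card L : ℝ)

/-- `bc r p` is the coefficient `c_{p+1}` in `(1 - y) ^ r = 1 - ∑_{p ≥ 1} c_p y ^ p`. -/
noncomputable def bc (r : ℝ) : ℕ → ℝ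
  | 0 => r
  | p + 1 => bc r p * ((p : ℝ) + 1 - r) / ((p : ℝ) + 2)

/-- truncated binomial series of `(1 - y) ^ r` -/
noncomputable def SP (r : ℝ) (P : ℕ) (y : ℝ) : ℝ :=
  1 - ∑ p ∈ range P, bc r p * y ^ (p + 1)

/-- truncated (unnormalised) Poisson moment of `(1 - x ^ i) ^ p` -/
noncomputable def Amom (μ x : ℝ) (D p : ℕ) : ℝ :=
  ∑ i ∈ range (D + 1), μ ^ i / (i.factorial : ℝ) * (1 - x ^ i) ^ p

noncomputable def Sig (r μ x : ℝ) (P D : ℕ) : ℝ :=
  ∑ p ∈ range P, bc r p * (Amom μ x D (p + 1)) ^ 2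

/-- the numerical certificate -/
def Cert (k : ℕ) (c₀ u : ℝ) (q P D : ℕ) : Prop :=
  ∃ B : ℝ, 0 < B ∧
    Real.exp (k * c₀) - Sig (1 / q) (k * c₀ / 2) (1 - u ^ (k - 1)) P D ≤ B * Real.exp (k * c₀) ∧
    Real.log B < (((k : ℝ) - 1) * c₀ / q) * Real.log (1 - u ^ k)

variable {Ω : Type}

/-- inner field operator: with inner probability `η` the constraint `h` is switched on -/
noncomputable def fld (η : ℝ) (h : Set Ω) (φ : Set Ω → ℝ) : Set Ω → ℝ :=
  fun X => (1 - η) * φ X + η * φ (X ∩ h)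

/-- outer average over a random constraint added to the current set -/
noncomputable def TC {C : Type} [Fintype C] (hc : C → Set Ω)
    (Ψ : (Set Ω → ℝ) → Set Ω → ℝ) : (Set Ω → ℝ) → Set Ω → ℝ :=
  fun φ X => (∑ c : C, Ψ φ (X ∩ hc c)) / (Fintype.card C : ℝ)

/-- outer average over a random field added to the inner state -/
noncomputable def TH {L : Type} [Fintype L] (η : ℝ) (hl : L → Set Ω)
    (Ψ : (Set Ω → ℝ) → Set Ω → ℝ) : (Set Ω → ℝ) → Set Ω → ℝ :=
  fun φ X => (∑ l : L, Ψ (fld η (hl l) φ) X) / (Fintype.card L : ℝ)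

/-- `1 - (1 - z) ^ N` -/
noncomputable def GN (N : ℕ) (z : ℝ) : ℝ := 1 - (1 - z) ^ N

/-- the assignments satisfying a literal -/
def lit {V : Type} (p : V × Bool) : Set (V → Bool) := {σ | σ p.1 = p.2}

/-- inner probability that a variable with `a` positive and `b` negative fields is not
contradicted, `x = 1 - η` -/
noncomputable def Wf (x : ℝ) (a b : ℕ) : ℝ := x ^ a + x ^ b - x ^ (a + b)

end Vale.Agent.P170
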