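import Vale.Agent.P170.UB.Basic

/-!
Task C: the mode of the binomial distribution and a Stirling type bound.
-/

namespace Vale.Agent.P170

open Finset

/-- the terms of the binomial expansion of `(1 + K) ^ n` -/
def tb (n K j : ℕ) : ℕ := n.choose j * K ^ (n - j)

theorem tb_up (K M j : ℕ) (hj : j + 1 ≤ M) :
    tb ((K + 1) * M) K j ≤ tb ((K + 1) * M) K (j + 1) := by
  set n := (K + 1) * M with hn
  have h1 : K * (j + 1) + j + 1 ≤ n := by
    have : (K + 1) * (j + 1) ≤ n := Nat.mul_le_mul_left _ hj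
    nlinarith
  have h2 : n - j = (n - (j + 1)) + 1 := by omega
  have h3 : n.choose j * K ≤ n.choose (j + 1) := by
    have h4 := Nat.choose_succ_right_eq n j
    have h5 : K * (j + 1) ≤ n - j := by omega
    have h6 : n.choose j * K * (j + 1) ≤ n.choose (j + 1) * (j + 1) := by
      rw [h4, mul_assoc]
      exact Nat.mul_le_mul_left _ h5
    exact Nat.le_of_mul_le_mul_right h6 (Nat.succ_pos j)
  unfold tb
  rw [h2, pow_succ]
  calc n.choose j * (K ^ (n - (j + 1)) * K) = n.choose j * K * K ^ (n - (j + 1)) := by ring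
    _ ≤ n.choose (j + 1) * K ^ (n - (j + 1)) := Nat.mul_le_mul_right _ h3

theorem tb_down (K M j : ℕ) (hj : M ≤ j) (hjn : j + 1 ≤ (K + 1) * M) :
    tb ((K + 1) * M) K (j + 1) ≤ tb ((K + 1) * M) K j := by
  set n := (K + 1) * M with hn
  have h1 : n ≤ K * (j + 1) + j := by
    have : n ≤ (K + 1) * j := Nat.mul_le_mul_left _ hj
    nlinarith
  have h2 : n - j = (n - (j + 1)) + 1 := by omega
  have h3 : n.choose (j + 1) ≤ n.choose j * K := by
    have h4 := Nat.choose_succ_right_eq n j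
    have h5 : n - j ≤ K * (j + 1) := by omega
    have h6 : n.choose (j + 1) * (j + 1) ≤ n.choose j * K * (j + 1) := by
      rw [h4, mul_assoc]
      exact Nat.mul_le_mul_left _ h5
    exact Nat.le_of_mul_le_mul_right h6 (Nat.succ_pos j)
  unfold tb
  rw [h2, pow_succ]
  calc n.choose (j + 1) * K ^ (n - (j + 1)) ≤ n.choose j * K * K ^ (n - (j + 1)) :=
        Nat.mul_le_mul_right _ h3
    _ = n.choose j * (K ^ (n - (j + 1)) * K) := by ring

theorem tb_le_left (K M : ℕ) : ∀ d, d ≤ M → tb ((K + 1) * M) K (M - d) ≤ tb ((K + 1) * M) K M := by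
  intro d
  induction d with
  | zero => intro _; simp
  | succ d ih =>
    intro hd
    have h1 := tb_up K M (M - (d + 1)) (by omega)
    have h2 : M - (d + 1) + 1 = M - d := by omega
    rw [h2] at h1
    exact h1.trans (ih (by omega))

theorem tb_le_right (K M : ℕ) :
    ∀ d, M + d ≤ (K + 1) * M → tb ((K + 1) * M) K (M + d) ≤ tb ((K + 1) * M) K M := by
  intro d
  induction d with
  | zero => intro _; simp
  | succ d ih =>
    intro hd
    have h1 := tb_down K M (M + d) (by omega) (by omega)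
    exact h1.trans (ih (by omega))

theorem tb_le_mode (K M j : ℕ) (hj : j ≤ (K + 1) * M) :
    tb ((K + 1) * M) K j ≤ tb ((K + 1) * M) K M := by
  rcases le_total j M with h | h
  · have := tb_le_left K M (M - j) (by omega)
    have e : M - (M - j) = j := by omega
    rwa [e] at this
  · have := tb_le_right K M (j - M) (by omega)
    have e : M + (j - M) = j := by omega
    rwa [e] at this

theorem choose_mode_nat (K M : ℕ) :
    (K + 1) ^ ((K + 1) * M) ≤ ((K + 1) * M + 1) * (((K + 1) * M).choose M * K ^ (K * M)) := by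
  set n := (K + 1) * M with hn
  have h1 : (K + 1) ^ n = ∑ j ∈ range (n + 1), tb n K j := by
    rw [add_comm K 1, add_pow]
    apply Finset.sum_congr rfl
    intro j _
    unfold tb
    simp [mul_comm]
  have h2 : ∑ j ∈ range (n + 1), tb n K j ≤ (range (n + 1)).card • tb n K M := by
    apply Finset.sum_le_card_nsmul
    intro j hj
    exact tb_le_mode K M j (by simpa [Nat.lt_succ_iff] using hj)
  have h3 : n - M = K * M := by
    rw [hn, add_mul, one_mul]
    omega
  rw [h1]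
  refine h2.trans (le_of_eq ?_)
  simp [tb, h3]

theorem choose_mode (k M : ℕ) (hk : 2 ≤ k) :
    (k : ℝ) ^ (k * M) ≤ (((k * M : ℕ) : ℝ) + 1) *
      (((k * M).choose M : ℝ) * ((k : ℝ) - 1) ^ ((k - 1) * M)) := by
  obtain ⟨K, rfl⟩ : ∃ K, k = K + 1 := ⟨k - 1, by omega⟩
  have h := choose_mode_nat K M
  have h' : (((K + 1) ^ ((K + 1) * M) : ℕ) : ℝ)
      ≤ ((((K + 1) * M + 1) * (((K + 1) * M).choose M * K ^ (K * M)) : ℕ) : ℝ) := by
    exact_mod_cast h
  have e1 : ((K + 1 : ℕ) : ℝ) - 1 = (K : ℝ) := by push_cast; ring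
  have e2 : K + 1 - 1 = K := by omega
  rw [e1, e2]
  push_cast at h' ⊢
  exact h'

theorem exp_one_mul_pow_le (R : ℕ) (hR : 1 ≤ R) :
    Real.exp 1 * (R : ℝ) ^ (R + 1) ≤ ((R : ℝ) + 1) ^ (R + 1) := by
  have hRpos : (0 : ℝ) < R := by exact_mod_cast hR
  have h1 : (R : ℝ) / ((R : ℝ) + 1) ≤ Real.exp (-(1 / ((R : ℝ) + 1))) := by
    have := Real.add_one_le_exp (-(1 / ((R : ℝ) + 1)))
    have e : -(1 / ((R : ℝ) + 1)) + 1 = (R : ℝ) / ((R : ℝ) + 1) := by
      field_simp
      ring
    rwa [e] at this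
  have h2 : ((R : ℝ) / ((R : ℝ) + 1)) ^ (R + 1) ≤ Real.exp (-(1 / ((R : ℝ) + 1))) ^ (R + 1) :=
    pow_le_pow_left₀ (by positivity) h1 _
  have h3 : Real.exp (-(1 / ((R : ℝ) + 1))) ^ (R + 1) = Real.exp (-1) := by
    rw [← Real.exp_nat_mul]
    congr 1
    push_cast
    field_simp
  rw [h3, div_pow, div_le_iff₀ (by positivity), Real.exp_neg] at h2
  have h4 : 0 < Real.exp 1 := Real.exp_pos 1
  calc Real.exp 1 * (R : ℝ) ^ (R + 1)
      ≤ Real.exp 1 * ((Real.exp 1)⁻¹ * ((R : ℝ) + 1) ^ (R + 1)) :=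
        mul_le_mul_of_nonneg_left h2 h4.le
    _ = ((R : ℝ) + 1) ^ (R + 1) := by
        rw [← mul_assoc, mul_inv_cancel₀ h4.ne', one_mul]

theorem factorial_exp_le (R : ℕ) (hR : 1 ≤ R) :
    (R.factorial : ℝ) * Real.exp R ≤ Real.exp 1 * R * (R : ℝ) ^ R := by
  induction R, hR using Nat.le_induction with
  | base => simp
  | succ R hR ih =>
    have h1 := exp_one_mul_pow_le R hR
    have hRpos : (0 : ℝ) < R := by exact_mod_cast hR
    have e1 : (((R + 1).factorial : ℕ) : ℝ) = ((R : ℝ) + 1) * (R.factorial : ℝ) := by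
      rw [Nat.factorial_succ]
      push_cast
      ring
    have e2 : Real.exp ((R + 1 : ℕ) : ℝ) = Real.exp R * Real.exp 1 := by
      push_cast
      rw [Real.exp_add]
    rw [e1, e2]
    push_cast
    have h4 : 0 < Real.exp 1 := Real.exp_pos 1
    calc ((R : ℝ) + 1) * (R.factorial : ℝ) * (Real.exp R * Real.exp 1)
        = ((R : ℝ) + 1) * Real.exp 1 * ((R.factorial : ℝ) * Real.exp R) := by ring
      _ ≤ ((R : ℝ) + 1) * Real.exp 1 * (Real.exp 1 * R * (R : ℝ) ^ R) :=
          mul_le_mul_of_nonneg_left ih (by positivity)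
      _ = ((R : ℝ) + 1) * Real.exp 1 * (Real.exp 1 * (R : ℝ) ^ (R + 1)) := by ring
      _ ≤ ((R : ℝ) + 1) * Real.exp 1 * (((R : ℝ) + 1) ^ (R + 1)) :=
          mul_le_mul_of_nonneg_left h1 (by positivity)
      _ = Real.exp 1 * ((R : ℝ) + 1) * ((R : ℝ) + 1) ^ (R + 1) := by ring

end Vale.Agent.P170
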