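import Vale.Agent.P170.UB.CertTools2

namespace Vale.Agent.P170

theorem cert4342 : Cert 3 (2171 / 500) (53 / 125) 1000000 40 35 := by
  have h := cert_of_rat2 (2171 / 500) (53 / 125) 1000000 40 35
    (3443 / 5000000000) (45406699 / 100) 6513 500 6 14
    (by norm_num) (by norm_num) (by norm_num) (by norm_num) (by norm_num) (by norm_num)
    (by norm_num) (by norm_num) (by decide +kernel) (by decide +kernel) (by decide +kernel)
  push_cast at h
  exact h

end Vale.Agent.P170
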