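import Vale.Agent.P170.UB.CertTools2

namespace Vale.Agent.P170

theorem cert440 : Cert 3 (22 / 5) (21 / 50) 1000 20 30 := by
  have h := cert_of_rat2 (22 / 5) (21 / 50) 1000 20 30
    (17 / 25000) (27018247 / 50) 66 5 6 14
    (by norm_num) (by norm_num) (by norm_num) (by norm_num) (by norm_num) (by norm_num)
    (by norm_num) (by norm_num) (by decide +kernel) (by decide +kernel) (by decide +kernel)
  push_cast at h
  exact h

end Vale.Agent.P170
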