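import Vale.Agent.P170.UB.CertTools

namespace Vale.Agent.P170

theorem cert445 : Cert 3 (89 / 20) (5 / 12) 8 12 20 := by
  have h := cert_of_rat (89 / 20) (5 / 12) 8 12 20 (9197 / 10000) 627815 267 20 89 80
    (by norm_num) (by norm_num) (by norm_num) (by norm_num) (by norm_num) (by norm_num)
    (by norm_num) (by decide +kernel) (by decide +kernel) (by norm_num) (by decide +kernel)
  push_cast at h
  exact h

end Vale.Agent.P170
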