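import Vale.Agent.P170.UB.Basic

/-!
Tools for checking the numerical certificate `Cert` by exact rational arithmetic.
-/

namespace Vale.Agent.P170

open Finset

/-- rational version of `bc` -/
def bcQ (r : ℚ) : ℕ → ℚ
  | 0 => r
  | p + 1 => bcQ r p * ((p : ℚ) + 1 - r) / ((p : ℚ) + 2)

/-- sum of the first `n` values -/
def sumQ (f : ℕ → ℚ) : ℕ → ℚ
  | 0 => 0
  | n + 1 => sumQ f n + f n

/-- rational version of `Amom` -/
def AmomQ (μ x : ℚ) (D p : ℕ) : ℚ :=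
  sumQ (fun i => μ ^ i / (i.factorial : ℚ) * (1 - x ^ i) ^ p) (D + 1)

/-- rational version of `Sig` -/
def SigQ (r μ x : ℚ) (P D : ℕ) : ℚ :=
  sumQ (fun p => bcQ r p * (AmomQ μ x D (p + 1)) ^ 2) P

theorem bcQ_cast (r : ℚ) (p : ℕ) : ((bcQ r p : ℚ) : ℝ) = bc (r : ℝ) p := by
  induction p with
  | zero => rfl
  | succ p ih =>
    simp only [bcQ, bc]
    push_cast
    rw [ih]

theorem sumQ_eq (f : ℕ → ℚ) (n : ℕ) : sumQ f n = ∑ i ∈ range n, f i := by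
  induction n with
  | zero => rfl
  | succ n ih => rw [sumQ, ih, Finset.sum_range_succ]

theorem AmomQ_cast (μ x : ℚ) (D p : ℕ) : ((AmomQ μ x D p : ℚ) : ℝ) = Amom (μ : ℝ) (x : ℝ) D p := by
  unfold AmomQ Amom
  rw [sumQ_eq]
  push_cast
  rfl

theorem SigQ_cast (r μ x : ℚ) (P D : ℕ) :
    ((SigQ r μ x P D : ℚ) : ℝ) = Sig (r : ℝ) (μ : ℝ) (x : ℝ) P D := by
  unfold SigQ Sig
  rw [sumQ_eq]
  push_cast
  refine Finset.sum_congr rfl fun p _ => ?_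
  rw [bcQ_cast, AmomQ_cast]

/-- upper bound for the exponential of a rational number -/
theorem exp_le_of_pow (m n : ℕ) (hn : 0 < n) (E : ℚ) (hE0 : 0 ≤ E)
    (h : (27182818286 / 10000000000 : ℚ) ^ m ≤ E ^ n) : Real.exp ((m : ℝ) / n) ≤ (E : ℝ) := by
  have hn' : (0 : ℝ) < n := by exact_mod_cast hn
  have h1 : Real.exp ((m : ℝ) / n) ^ n = Real.exp 1 ^ m := by
    rw [← Real.exp_nat_mul, ← Real.exp_nat_mul]
    congr 1
    field_simp
  have h2 : Real.exp 1 ^ m ≤ ((27182818286 / 10000000000 : ℚ) : ℝ) ^ m := by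
    refine pow_le_pow_left₀ (Real.exp_pos 1).le ?_ m
    have := Real.exp_one_lt_d9
    push_cast
    norm_num at this ⊢
    linarith
  have h3 : ((27182818286 / 10000000000 : ℚ) : ℝ) ^ m ≤ (E : ℝ) ^ n := by exact_mod_cast h
  have hE0' : (0 : ℝ) ≤ E := by exact_mod_cast hE0
  exact le_of_pow_le_pow_left₀ hn.ne' hE0' (h1.le.trans (h2.trans h3))

/-- reduction of the certificate to rational inequalities -/
theorem cert_of_rat (c₀ u : ℚ) (q P D : ℕ) (B E : ℚ) (m n a b : ℕ) (hn : 0 < n) (hb : 0 < b)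
    (hq : 0 < q) (hB : 0 < B) (hB1 : B ≤ 1) (hE0 : 0 ≤ E)
    (hmn : 3 * c₀ = (m : ℚ) / n)
    (hE : (27182818286 / 10000000000 : ℚ) ^ m ≤ E ^ n)
    (h1 : E * (1 - B) ≤ SigQ (1 / q) (3 * c₀ / 2) (1 - u ^ 2) P D)
    (hab : 2 * c₀ / q = (a : ℚ) / b)
    (h2 : B ^ b < (1 - u ^ 3) ^ a) :
    Cert 3 (c₀ : ℝ) (u : ℝ) q P D := by
  refine ⟨(B : ℝ), by exact_mod_cast hB, ?_, ?_⟩
  · have hexp : Real.exp (((3 : ℕ) : ℝ) * (c₀ : ℝ)) ≤ (E : ℝ) := by
      have h3 : (((3 : ℕ) : ℝ) * (c₀ : ℝ)) = (m : ℝ) / n := by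
        have := congrArg (fun t : ℚ => (t : ℝ)) hmn
        push_cast at this ⊢
        exact this
      rw [h3]
      exact exp_le_of_pow m n hn E hE0 hE
    have hS : Sig (1 / ((q : ℕ) : ℝ)) (((3 : ℕ) : ℝ) * (c₀ : ℝ) / 2) (1 - (u : ℝ) ^ (3 - 1)) P D =
        ((SigQ (1 / q) (3 * c₀ / 2) (1 - u ^ 2) P D : ℚ) : ℝ) := by
      rw [SigQ_cast]
      push_cast
      rfl
    rw [hS]
    have h1' : (E : ℝ) * (1 - (B : ℝ)) ≤ ((SigQ (1 / q) (3 * c₀ / 2) (1 - u ^ 2) P D : ℚ) : ℝ) := by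
      exact_mod_cast h1
    have hB1' : (0 : ℝ) ≤ 1 - (B : ℝ) := by
      have : (B : ℝ) ≤ 1 := by exact_mod_cast hB1
      linarith
    have h5 := mul_le_mul_of_nonneg_right hexp hB1'
    generalize Real.exp (((3 : ℕ) : ℝ) * (c₀ : ℝ)) = X at h5 ⊢
    generalize ((SigQ (1 / q) (3 * c₀ / 2) (1 - u ^ 2) P D : ℚ) : ℝ) = S at h1' ⊢
    have h6 : X * (1 - (B : ℝ)) = X - (B : ℝ) * X := by ring
    linarith
  · have hB' : (0 : ℝ) < B := by exact_mod_cast hB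
    have hb' : (0 : ℝ) < b := by exact_mod_cast hb
    have h2' : (B : ℝ) ^ b < (1 - (u : ℝ) ^ 3) ^ a := by exact_mod_cast h2
    have h3 := Real.log_lt_log (pow_pos hB' b) h2'
    rw [Real.log_pow, Real.log_pow] at h3
    have hab' : (((3 : ℕ) : ℝ) - 1) * (c₀ : ℝ) / ((q : ℕ) : ℝ) = (a : ℝ) / b := by
      have : (2 * (c₀ : ℝ) / (q : ℝ)) = (a : ℝ) / b := by
        have := congrArg (fun t : ℚ => (t : ℝ)) hab
        push_cast at this
        exact this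
      rw [← this]
      norm_num
    rw [hab', div_mul_eq_mul_div, lt_div_iff₀ hb']
    linarith

end Vale.Agent.P170
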