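import Vale.Agent.P170.UB.CertTools

/-!
A second reduction of the certificate, with the logarithms bounded by their Taylor series; it
allows very large values of `q`.
-/

namespace Vale.Agent.P170

open Finset

/-- truncated series of `- log (1 - x)` -/
def LQ (x : ℚ) (n : ℕ) : ℚ := sumQ (fun i => x ^ (i + 1) / ((i : ℚ) + 1)) n

theorem LQ_cast (x : ℚ) (n : ℕ) :
    ((LQ x n : ℚ) : ℝ) = ∑ i ∈ range n, (x : ℝ) ^ (i + 1) / ((i : ℝ) + 1) := by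
  unfold LQ
  rw [sumQ_eq]
  push_cast
  rfl

theorem abs_log_bound (x : ℚ) (h0 : 0 ≤ x) (h1 : x < 1) (n : ℕ) :
    |((LQ x n : ℚ) : ℝ) + Real.log (1 - (x : ℝ))| ≤ ((x ^ (n + 1) / (1 - x) : ℚ) : ℝ) := by
  have h0' : (0 : ℝ) ≤ x := by exact_mod_cast h0
  have h1' : (x : ℝ) < 1 := by exact_mod_cast h1
  have h := Real.abs_log_sub_add_sum_range_le (x := (x : ℝ)) (by rw [abs_of_nonneg h0']; exact h1') n
  rw [abs_of_nonneg h0'] at h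
  rw [LQ_cast]
  push_cast
  exact h

/-- reduction of the certificate to rational inequalities, series version -/
theorem cert_of_rat2 (c₀ u : ℚ) (q P D : ℕ) (s E : ℚ) (m n n1 n2 : ℕ) (hn : 0 < n)
    (hs : 0 < s) (hs1 : s < 1) (hE0 : 0 ≤ E) (hc : 0 ≤ c₀) (hu0 : 0 ≤ u ^ 3) (hu1 : u ^ 3 < 1)
    (hmn : 3 * c₀ = (m : ℚ) / n)
    (hE : (27182818286 / 10000000000 : ℚ) ^ m ≤ E ^ n)
    (h1 : E * s ≤ SigQ (1 / q) (3 * c₀ / 2) (1 - u ^ 2) P D)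
    (h2 : -LQ s n1 + s ^ (n1 + 1) / (1 - s) <
      2 * c₀ / q * (-LQ (u ^ 3) n2 - (u ^ 3) ^ (n2 + 1) / (1 - u ^ 3))) :
    Cert 3 (c₀ : ℝ) (u : ℝ) q P D := by
  have hs' : (0 : ℝ) < s := by exact_mod_cast hs
  have hs1' : (s : ℝ) < 1 := by exact_mod_cast hs1
  refine ⟨1 - (s : ℝ), by linarith, ?_, ?_⟩
  · have hexp : Real.exp (((3 : ℕ) : ℝ) * (c₀ : ℝ)) ≤ (E : ℝ) := by
      have h3 : (((3 : ℕ) : ℝ) * (c₀ : ℝ)) = (m : ℝ) / n := by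
        have := congrArg (fun t : ℚ => (t : ℝ)) hmn
        push_cast at this ⊢
        exact this
      rw [h3]
      exact exp_le_of_pow m n hn E hE0 hE
    have hS : Sig (1 / ((q : ℕ) : ℝ)) (((3 : ℕ) : ℝ) * (c₀ : ℝ) / 2) (1 - (u : ℝ) ^ (3 - 1)) P D =
        ((SigQ (1 / q) (3 * c₀ / 2) (1 - u ^ 2) P D : ℚ) : ℝ) := by
      rw [SigQ_cast]
      push_cast
      rfl
    rw [hS]
    have h1' : (E : ℝ) * (s : ℝ) ≤ ((SigQ (1 / q) (3 * c₀ / 2) (1 - u ^ 2) P D : ℚ) : ℝ) := by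
      exact_mod_cast h1
    have h5 := mul_le_mul_of_nonneg_right hexp hs'.le
    generalize Real.exp (((3 : ℕ) : ℝ) * (c₀ : ℝ)) = X at h5 ⊢
    generalize ((SigQ (1 / q) (3 * c₀ / 2) (1 - u ^ 2) P D : ℚ) : ℝ) = S at h1' ⊢
    have h6 : (1 - (s : ℝ)) * X = X - X * (s : ℝ) := by ring
    linarith
  · have ha := abs_le.1 (abs_log_bound s hs.le hs1 n1)
    have hb := abs_le.1 (abs_log_bound (u ^ 3) hu0 hu1 n2)
    have h2' : -((LQ s n1 : ℚ) : ℝ) + ((s ^ (n1 + 1) / (1 - s) : ℚ) : ℝ) <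
        ((2 * c₀ / q : ℚ) : ℝ) *
          (-((LQ (u ^ 3) n2 : ℚ) : ℝ) - (((u ^ 3) ^ (n2 + 1) / (1 - u ^ 3) : ℚ) : ℝ)) := by
      exact_mod_cast h2
    have hcq : (0 : ℝ) ≤ ((2 * c₀ / q : ℚ) : ℝ) := by
      have : (0 : ℚ) ≤ 2 * c₀ / q := by positivity
      exact_mod_cast this
    have hcq' : (((3 : ℕ) : ℝ) - 1) * (c₀ : ℝ) / ((q : ℕ) : ℝ) = ((2 * c₀ / q : ℚ) : ℝ) := by
      push_cast
      norm_num
    rw [hcq']
    have hu : (((u ^ 3 : ℚ) : ℝ)) = (u : ℝ) ^ 3 := by push_cast; rfl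
    rw [hu] at hb
    have h7 : ((2 * c₀ / q : ℚ) : ℝ) *
          (-((LQ (u ^ 3) n2 : ℚ) : ℝ) - (((u ^ 3) ^ (n2 + 1) / (1 - u ^ 3) : ℚ) : ℝ)) ≤
        ((2 * c₀ / q : ℚ) : ℝ) * Real.log (1 - (u : ℝ) ^ 3) :=
      mul_le_mul_of_nonneg_left (by linarith [hb.1]) hcq
    linarith [ha.2]

end Vale.Agent.P170
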