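import Vale.Agent.P170.UB.Basic

/-!
Task E: the decoupling product formula for the pure field system.
-/

namespace Vale.Agent.P170

open Finset

/-- the subcube where the variables flagged by `p` are true and those flagged by `q` are false -/
def cube {V : Type} (p q : V → Bool) : Set (V → Bool) :=
  {σ | ∀ v, (p v = true → σ v = true) ∧ (q v = true → σ v = false)}

/-- one-variable weight -/
noncomputable def wv (x : ℝ) (a b : ℕ) (p q : Bool) : ℝ :=
  if p = true then (if q = true then 0 else x ^ b) else (if q = true then x ^ a else Wf x a b)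

/-- the invariant: the inner state is a product over the variables on every subcube -/
def Dom {V : Type} [Fintype V] (x : ℝ) (φ : Set (V → Bool) → ℝ) (a : V × Bool → ℕ) : Prop :=
  ∀ p q : V → Bool, φ (cube p q) = ∏ v, wv x (a (v, true)) (a (v, false)) (p v) (q v)

theorem cube_false {V : Type} : cube (fun _ : V => false) (fun _ : V => false) = Set.univ := by
  ext σ
  simp [cube]

theorem cube_inter_lit_true {V : Type} [DecidableEq V] (p q : V → Bool) (v0 : V) :
    cube p q ∩ lit (v0, true) = cube (Function.update p v0 true) q := by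
  ext σ
  simp only [cube, lit, Set.mem_inter_iff, Set.mem_ofPred_eq]
  constructor
  · rintro ⟨h1, h2⟩ v
    refine ⟨?_, (h1 v).2⟩
    intro hv
    by_cases hvv : v = v0
    · subst hvv
      exact h2
    · rw [Function.update_of_ne hvv] at hv
      exact (h1 v).1 hv
  · intro h
    refine ⟨?_, ?_⟩
    · intro v
      refine ⟨?_, (h v).2⟩
      intro hv
      apply (h v).1
      by_cases hvv : v = v0
      · subst hvv
        simp
      · rw [Function.update_of_ne hvv]
        exact hv
    · apply (h v0).1
      simp

theorem cube_inter_lit_false {V : Type} [DecidableEq V] (p q : V → Bool) (v0 : V) :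
    cube p q ∩ lit (v0, false) = cube p (Function.update q v0 true) := by
  ext σ
  simp only [cube, lit, Set.mem_inter_iff, Set.mem_ofPred_eq]
  constructor
  · rintro ⟨h1, h2⟩ v
    refine ⟨(h1 v).1, ?_⟩
    intro hv
    by_cases hvv : v = v0
    · subst hvv
      exact h2
    · rw [Function.update_of_ne hvv] at hv
      exact (h1 v).2 hv
  · intro h
    refine ⟨?_, ?_⟩
    · intro v
      refine ⟨(h v).1, ?_⟩
      intro hv
      apply (h v).2
      by_cases hvv : v = v0
      · subst hvv
        simp
      · rw [Function.update_of_ne hvv]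
        exact hv
    · apply (h v0).2
      simp

theorem dom_ind {V : Type} [Fintype V] (x : ℝ) : Dom x (ind : Set (V → Bool) → ℝ) 0 := by
  intro p q
  by_cases h : ∃ v, p v = true ∧ q v = true
  · obtain ⟨v, hp, hq⟩ := h
    have h1 : ¬ (cube p q).Nonempty := by
      rintro ⟨σ, hσ⟩
      have h2 := (hσ v).1 hp
      have h3 := (hσ v).2 hq
      rw [h2] at h3
      exact Bool.noConfusion h3
    rw [ind_of_not_nonempty h1]
    symm
    apply Finset.prod_eq_zero (Finset.mem_univ v)
    simp [wv, hp, hq]
  · have h1 : (cube p q).Nonempty := by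
      refine ⟨p, ?_⟩
      intro v
      refine ⟨fun hv => hv, ?_⟩
      intro hq
      by_contra hp
      apply h
      refine ⟨v, ?_, hq⟩
      simpa using hp
    rw [ind_of_nonempty h1]
    symm
    apply Finset.prod_eq_one
    intro v _
    have h2 : ¬ (p v = true ∧ q v = true) := fun hh => h ⟨v, hh⟩
    simp only [wv, Pi.zero_apply, pow_zero, Wf, add_zero]
    by_cases hp : p v = true
    · have hq : ¬ q v = true := fun hq => h2 ⟨hp, hq⟩
      simp [hp, hq]
    · by_cases hq : q v = true
      · simp [hp, hq]
      · simp [hp, hq]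

/-- products differing in one factor -/
theorem prod_combine {V : Type} [Fintype V] [DecidableEq V] (F G H : V → ℝ) (v0 : V) (c1 c2 : ℝ)
    (hG : ∀ v, v ≠ v0 → G v = F v) (hH : ∀ v, v ≠ v0 → H v = F v)
    (h0 : c1 * F v0 + c2 * G v0 = H v0) :
    c1 * ∏ v, F v + c2 * ∏ v, G v = ∏ v, H v := by
  rw [← Finset.mul_prod_erase univ F (Finset.mem_univ v0),
    ← Finset.mul_prod_erase univ G (Finset.mem_univ v0),
    ← Finset.mul_prod_erase univ H (Finset.mem_univ v0)]
  have e1 : ∏ v ∈ univ.erase v0, G v = ∏ v ∈ univ.erase v0, F v :=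
    Finset.prod_congr rfl (fun v hv => hG v (Finset.ne_of_mem_erase hv))
  have e2 : ∏ v ∈ univ.erase v0, H v = ∏ v ∈ univ.erase v0, F v :=
    Finset.prod_congr rfl (fun v hv => hH v (Finset.ne_of_mem_erase hv))
  rw [e1, e2, ← h0]
  ring

theorem wv_step_true (η : ℝ) (a b : ℕ) (p q : Bool) :
    (1 - η) * wv (1 - η) a b p q + η * wv (1 - η) a b true q = wv (1 - η) (a + 1) b p q := by
  cases p <;> cases q <;> simp [wv, Wf] <;> ring

theorem wv_step_false (η : ℝ) (a b : ℕ) (p q : Bool) :
    (1 - η) * wv (1 - η) a b p q + η * wv (1 - η) a b p true = wv (1 - η) a (b + 1) p q := by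
  cases p <;> cases q <;> simp [wv, Wf] <;> ring

theorem dom_fld {V : Type} [Fintype V] [DecidableEq V] (η : ℝ) {φ : Set (V → Bool) → ℝ}
    {a : V × Bool → ℕ} (h : Dom (1 - η) φ a) (l : V × Bool) :
    Dom (1 - η) (fld η (lit l) φ) (a + Pi.single l 1) := by
  intro p q
  obtain ⟨v0, s⟩ := l
  unfold fld
  cases s
  · rw [cube_inter_lit_false, h p q, h p (Function.update q v0 true)]
    apply prod_combine _ _ _ v0
    · intro v hv
      rw [Function.update_of_ne hv]
    · intro v hv
      have e1 : (v, true) ≠ (v0, false) := by simp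
      have e2 : (v, false) ≠ (v0, false) := by simp [hv]
      simp [Pi.single_eq_of_ne e1, Pi.single_eq_of_ne e2]
    · have e1 : (v0, true) ≠ (v0, false) := by simp
      simp only [Function.update_self, Pi.add_apply, Pi.single_eq_same, Pi.single_eq_of_ne e1,
        add_zero]
      exact wv_step_false η _ _ _ _
  · rw [cube_inter_lit_true, h p q, h (Function.update p v0 true) q]
    apply prod_combine _ _ _ v0
    · intro v hv
      rw [Function.update_of_ne hv]
    · intro v hv
      have e1 : (v, true) ≠ (v0, true) := by simp [hv]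
      have e2 : (v, false) ≠ (v0, true) := by simp
      simp [Pi.single_eq_of_ne e1, Pi.single_eq_of_ne e2]
    · have e1 : (v0, false) ≠ (v0, true) := by simp
      simp only [Function.update_self, Pi.add_apply, Pi.single_eq_same, Pi.single_eq_of_ne e1,
        add_zero]
      exact wv_step_true η _ _ _ _

theorem decouple_aux {V : Type} [Fintype V] [DecidableEq V] (η : ℝ) (Γ : ℝ → ℝ) (R : ℕ) :
    ∀ (φ : Set (V → Bool) → ℝ) (a : V × Bool → ℕ), Dom (1 - η) φ a →
    ((TH η (lit : V × Bool → Set (V → Bool)))^[R] (fun φ X => Γ (φ X))) φ Set.univ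
      = (cavg^[R] (fun a : V × Bool → ℕ => Γ (∏ v, Wf (1 - η) (a (v, true)) (a (v, false))))) a := by
  induction R with
  | zero =>
    intro φ a h
    simp only [Function.iterate_zero, id_eq]
    rw [← cube_false, h]
    simp [wv]
  | succ R ih =>
    intro φ a h
    rw [Function.iterate_succ_apply', Function.iterate_succ_apply']
    unfold TH cavg
    congr 1
    apply Finset.sum_congr rfl
    intro l _
    exact ih _ _ (dom_fld η h l)

theorem decouple {V : Type} [Fintype V] [DecidableEq V] (η : ℝ) (Γ : ℝ → ℝ) (R : ℕ) :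
    ((TH η (lit : V × Bool → Set (V → Bool)))^[R] (fun φ X => Γ (φ X))) ind Set.univ
      = (cavg^[R] (fun a : V × Bool → ℕ => Γ (∏ v, Wf (1 - η) (a (v, true)) (a (v, false))))) 0 :=
  decouple_aux η Γ R ind 0 (dom_ind (1 - η))

end Vale.Agent.P170
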