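import Vale.Agent.P170.UB.Basic

/-!
Task A: Poissonisation of the multinomial counts.
-/

namespace Vale.Agent.P170

open Finset

section
variable {L : Type} [Fintype L] [DecidableEq L]

/-- inverse multinomial weight -/
noncomputable def pwt (a : L → ℕ) : ℝ := ∏ l, (((a l).factorial : ℝ))⁻¹

theorem pwt_add_single (a : L → ℕ) (l : L) :
    ((a l : ℝ) + 1) * pwt (a + Pi.single l 1) = pwt a := by
  unfold pwt
  rw [← Finset.mul_prod_erase univ _ (mem_univ l), ← Finset.mul_prod_erase univ _ (mem_univ l)]
  have h1 : ∏ x ∈ univ.erase l, ((((a + Pi.single l 1 : L → ℕ) x).factorial : ℝ))⁻¹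
      = ∏ x ∈ univ.erase l, (((a x).factorial : ℝ))⁻¹ := by
    refine Finset.prod_congr rfl fun x hx => ?_
    have hx' : x ≠ l := (Finset.mem_erase.1 hx).1
    simp [Pi.single_eq_of_ne hx']
  rw [h1, ← mul_assoc]
  congr 1
  simp only [Pi.add_apply, Pi.single_eq_same, Nat.factorial_succ, Nat.cast_mul, Nat.cast_add,
    Nat.cast_one]
  have h2 : ((a l : ℝ) + 1) ≠ 0 := by positivity
  have h3 : ((a l).factorial : ℝ) ≠ 0 := by positivity
  field_simp

/-- the basic recursion for multinomial sums -/
theorem sum_piAntidiag_succ (G : (L → ℕ) → ℝ) (R : ℕ) :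
    ∑ l : L, ∑ a ∈ piAntidiag (univ : Finset L) R, pwt a * G (a + Pi.single l 1)
      = ((R : ℝ) + 1) * ∑ a ∈ piAntidiag (univ : Finset L) (R + 1), pwt a * G a := by
  have h1 : ∀ l : L, ∑ a ∈ piAntidiag (univ : Finset L) R, pwt a * G (a + Pi.single l 1)
      = ∑ a ∈ piAntidiag (univ : Finset L) (R + 1), (a l : ℝ) * (pwt a * G a) := by
    intro l
    refine Finset.sum_of_injOn (fun a => a + Pi.single l 1) ?_ ?_ ?_ ?_
    · intro a _ b _ hab
      exact add_right_cancel hab
    · intro a ha
      simp only [mem_coe, mem_piAntidiag, mem_univ, implies_true, and_true] at ha ⊢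
      simp [Finset.sum_add_distrib, ha]
    · intro a ha hna
      have hal : a l = 0 := by
        by_contra h0
        apply hna
        refine ⟨a - Pi.single l 1, ?_, ?_⟩
        · simp only [mem_coe, mem_piAntidiag, mem_univ, implies_true, and_true] at ha ⊢
          have h2 : ∑ x, (a - Pi.single l 1 : L → ℕ) x + 1 = R + 1 := by
            rw [← ha]
            have : ∀ x, a x = (a - Pi.single l 1 : L → ℕ) x + (Pi.single l 1 : L → ℕ) x := by
              intro x
              by_cases hx : x = l
              · subst hx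
                simp only [Pi.sub_apply, Pi.single_eq_same]
                omega
              · simp [Pi.single_eq_of_ne hx]
            conv_rhs => rw [Finset.sum_congr rfl fun x _ => this x]
            rw [Finset.sum_add_distrib]
            simp
          have h3 : univ.sum (a - Pi.single l 1 : L → ℕ) = ∑ x, (a - Pi.single l 1 : L → ℕ) x := rfl
          omega
        · funext x
          by_cases hx : x = l
          · subst hx
            simp only [Pi.add_apply, Pi.sub_apply, Pi.single_eq_same]
            omega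
          · simp [Pi.single_eq_of_ne hx]
      simp [hal]
    · intro a _
      rw [← pwt_add_single a l]
      simp only [Pi.add_apply, Pi.single_eq_same, Nat.cast_add, Nat.cast_one]
      ring
  simp_rw [h1]
  rw [Finset.sum_comm, Finset.mul_sum]
  refine Finset.sum_congr rfl fun a ha => ?_
  rw [← Finset.sum_mul]
  congr 1
  simp only [mem_piAntidiag, mem_univ, implies_true, and_true] at ha
  rw [← Nat.cast_sum, ha]
  push_cast
  ring

/-- exact multinomial formula for the iterated average -/
theorem cavg_iter_eq [Nonempty L] (F : (L → ℕ) → ℝ) (R : ℕ) (b : L → ℕ) :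
    (cavg^[R] F) b = (R.factorial : ℝ) / (Fintype.card L : ℝ) ^ R *
      ∑ a ∈ piAntidiag (univ : Finset L) R, pwt a * F (b + a) := by
  have hc : (Fintype.card L : ℝ) ≠ 0 := by
    have : 0 < Fintype.card L := Fintype.card_pos
    positivity
  induction R generalizing b with
  | zero => simp [pwt]
  | succ R ih =>
    rw [Function.iterate_succ_apply']
    have hdef : cavg (cavg^[R] F) b
        = (∑ l : L, (cavg^[R] F) (b + Pi.single l 1)) / (Fintype.card L : ℝ) := rfl
    rw [hdef]
    simp_rw [ih]
    rw [← Finset.mul_sum]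
    have h := sum_piAntidiag_succ (fun a => F (b + a)) R
    have h2 : ∑ l : L, ∑ a ∈ piAntidiag (univ : Finset L) R, pwt a * F (b + Pi.single l 1 + a)
        = ∑ l : L, ∑ a ∈ piAntidiag (univ : Finset L) R, pwt a * F (b + (a + Pi.single l 1)) := by
      refine Finset.sum_congr rfl fun l _ => Finset.sum_congr rfl fun a _ => ?_
      rw [add_assoc, add_comm (Pi.single l 1) a]
    rw [h2, h, Nat.factorial_succ]
    push_cast
    field_simp
    ring

theorem cavg_iter_le [Nonempty L] (F : (L → ℕ) → ℝ)
    (hF : ∀ a, 0 ≤ F a) (μ : ℝ) (hμ : 0 < μ) (R : ℕ) :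
    (cavg^[R] F) 0 ≤ (R.factorial : ℝ) / (μ * (Fintype.card L : ℝ)) ^ R *
      ∑ a ∈ Fintype.piFinset (fun _ : L => range (R + 1)),
        (∏ l, μ ^ (a l) / ((a l).factorial : ℝ)) * F a := by
  have hc : 0 < (Fintype.card L : ℝ) := by
    have : 0 < Fintype.card L := Fintype.card_pos
    positivity
  rw [cavg_iter_eq]
  have h1 : (R.factorial : ℝ) / (Fintype.card L : ℝ) ^ R *
      ∑ a ∈ piAntidiag (univ : Finset L) R, pwt a * F (0 + a)
      = (R.factorial : ℝ) / (μ * (Fintype.card L : ℝ)) ^ R *
      ∑ a ∈ piAntidiag (univ : Finset L) R, (∏ l, μ ^ (a l) / ((a l).factorial : ℝ)) * F a := by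
    have h2 : ∀ a ∈ piAntidiag (univ : Finset L) R,
        (∏ l, μ ^ (a l) / ((a l).factorial : ℝ)) * F a = μ ^ R * (pwt a * F (0 + a)) := by
      intro a ha
      simp only [mem_piAntidiag, mem_univ, implies_true, and_true] at ha
      simp_rw [div_eq_mul_inv]
      rw [Finset.prod_mul_distrib, Finset.prod_pow_eq_pow_sum, ha, zero_add, pwt]
      ring
    rw [Finset.sum_congr rfl h2, ← Finset.mul_sum, mul_pow]
    field_simp
  rw [h1]
  refine mul_le_mul_of_nonneg_left ?_ (by positivity)
  refine Finset.sum_le_sum_of_subset_of_nonneg ?_ ?_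
  · intro a ha
    simp only [mem_piAntidiag, mem_univ, implies_true, and_true] at ha
    rw [Fintype.mem_piFinset]
    intro l
    rw [Finset.mem_range]
    have : a l ≤ ∑ x, a x := Finset.single_le_sum (fun _ _ => Nat.zero_le _) (mem_univ l)
    rw [ha] at this
    omega
  · intro a _ _
    exact mul_nonneg (Finset.prod_nonneg fun l _ => by positivity) (hF a)

end

/-- splitting a counter family over literals into pairs of counters over variables -/
def pairEquiv (V : Type) : (V × Bool → ℕ) ≃ (V → ℕ × ℕ) where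
  toFun a v := (a (v, true), a (v, false))
  invFun x p := if p.2 then (x p.1).1 else (x p.1).2
  left_inv a := by
    funext ⟨v, b⟩
    cases b <;> simp
  right_inv x := by
    funext v
    simp

theorem poissonize {V : Type} [Fintype V] [DecidableEq V] [Nonempty V] (g : ℕ → ℕ → ℝ)
    (hg : ∀ i j, 0 ≤ g i j) (μ : ℝ) (hμ : 0 < μ) (R : ℕ) :
    (cavg^[R] (fun a : V × Bool → ℕ => ∏ v, g (a (v, true)) (a (v, false)))) 0
      ≤ (R.factorial : ℝ) / (μ * (2 * (Fintype.card V : ℝ))) ^ R *
        (∑ i ∈ range (R + 1), ∑ j ∈ range (R + 1),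
          μ ^ i / (i.factorial : ℝ) * (μ ^ j / (j.factorial : ℝ)) * g i j) ^ Fintype.card V := by
  have h := cavg_iter_le (L := V × Bool)
    (fun a : V × Bool → ℕ => ∏ v, g (a (v, true)) (a (v, false)))
    (fun a => Finset.prod_nonneg fun v _ => hg _ _) μ hμ R
  refine h.trans (le_of_eq ?_)
  have hcard : (Fintype.card (V × Bool) : ℝ) = 2 * (Fintype.card V : ℝ) := by
    rw [Fintype.card_prod, Fintype.card_bool]
    push_cast
    ring
  rw [hcard]
  congr 1
  set φ : ℕ × ℕ → ℝ := fun p =>
    μ ^ p.1 / (p.1.factorial : ℝ) * (μ ^ p.2 / (p.2.factorial : ℝ)) * g p.1 p.2 with hφ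
  have h1 : ∑ i ∈ range (R + 1), ∑ j ∈ range (R + 1),
      μ ^ i / (i.factorial : ℝ) * (μ ^ j / (j.factorial : ℝ)) * g i j
      = ∑ p ∈ range (R + 1) ×ˢ range (R + 1), φ p := by
    rw [Finset.sum_product]
  rw [h1, ← Finset.card_univ, ← Finset.prod_const, Finset.prod_univ_sum]
  refine Finset.sum_equiv (pairEquiv V) ?_ ?_
  · intro a
    simp only [Fintype.mem_piFinset, Finset.mem_product, pairEquiv, Equiv.coe_fn_mk, Prod.forall,
      Bool.forall_bool]
    constructor
    · intro ha v
      exact ⟨(ha v).2, (ha v).1⟩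
    · intro ha v
      exact ⟨(ha v).2, (ha v).1⟩
  · intro a _
    rw [Fintype.prod_prod_type, ← Finset.prod_mul_distrib]
    refine Finset.prod_congr rfl fun v _ => ?_
    simp only [hφ, pairEquiv, Fintype.prod_bool, Equiv.coe_fn_mk]

end Vale.Agent.P170
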