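import Vale.Agent.P170.UB.Basic

/-!
The truncated binomial series `SP (1/q) P` dominates the `q`-th root of `1 - y` on `[0, 1]`.
-/

namespace Vale.Agent.P170

open Finset

theorem bc_nonneg (r : ℝ) (h0 : 0 ≤ r) (h1 : r ≤ 1) (p : ℕ) : 0 ≤ bc r p := by
  induction p with
  | zero => simpa [bc] using h0
  | succ p ih =>
    simp only [bc]
    have hp : (0 : ℝ) ≤ (p : ℝ) := Nat.cast_nonneg p
    exact div_nonneg (mul_nonneg ih (by linarith)) (by linarith)

theorem bc_succ_mul (r : ℝ) (p : ℕ) :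
    bc r (p + 1) * ((p : ℝ) + 2) = bc r p * ((p : ℝ) + 1 - r) := by
  have hp : (0 : ℝ) ≤ (p : ℝ) := Nat.cast_nonneg p
  have h2 : ((p : ℝ) + 2) ≠ 0 := by linarith
  simp only [bc]
  field_simp

theorem bc_tail (r : ℝ) (P : ℕ) :
    r * (1 - ∑ p ∈ range P, bc r p) = bc r P * ((P : ℝ) + 1) := by
  induction P with
  | zero => simp [bc]
  | succ P ih =>
    rw [sum_range_succ]
    have h := bc_succ_mul r P
    push_cast
    linear_combination ih - h

theorem SP_nonneg' (r : ℝ) (h0 : 0 < r) (h1 : r ≤ 1) (P : ℕ) (y : ℝ) (hy0 : 0 ≤ y)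
    (hy1 : y ≤ 1) : 0 ≤ SP r P y := by
  have ht : 0 ≤ 1 - ∑ p ∈ range P, bc r p := by
    have h := bc_tail r P
    have hb : 0 ≤ bc r P * ((P : ℝ) + 1) :=
      mul_nonneg (bc_nonneg r h0.le h1 P) (by positivity)
    rw [← h] at hb
    exact nonneg_of_mul_nonneg_right hb h0
  have hle : ∑ p ∈ range P, bc r p * y ^ (p + 1) ≤ ∑ p ∈ range P, bc r p := by
    refine sum_le_sum (fun p _ => ?_)
    have : y ^ (p + 1) ≤ 1 := pow_le_one₀ hy0 hy1
    have hb := bc_nonneg r h0.le h1 p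
    nlinarith
  unfold SP
  linarith

theorem SP_nonneg (q : ℕ) (hq : 1 ≤ q) (P : ℕ) (y : ℝ) (hy0 : 0 ≤ y) (hy1 : y ≤ 1) :
    0 ≤ SP (1 / (q : ℝ)) P y := by
  have hq' : (1 : ℝ) ≤ (q : ℝ) := by exact_mod_cast hq
  refine SP_nonneg' _ (by positivity) ?_ P y hy0 hy1
  rw [div_le_one (by linarith)]
  exact hq'

/-- the derivative of `SP r P` -/
noncomputable def dSP (r : ℝ) (P : ℕ) (y : ℝ) : ℝ :=
  - ∑ p ∈ range P, bc r p * (((p : ℝ) + 1) * y ^ p)

theorem hasDerivAt_SP (r : ℝ) (P : ℕ) (y : ℝ) : HasDerivAt (SP r P) (dSP r P y) y := by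
  have h : ∀ p ∈ range P, HasDerivAt (fun z : ℝ => bc r p * z ^ (p + 1))
      (bc r p * (((p : ℝ) + 1) * y ^ p)) y := by
    intro p _
    have := (hasDerivAt_pow (p + 1) y).const_mul (bc r p)
    simpa using this
  have h2 := (HasDerivAt.fun_sum h).const_sub 1
  exact h2

theorem SP_ode (r : ℝ) (P : ℕ) (y : ℝ) :
    (1 - y) * dSP r P y + r * SP r P y = bc r P * ((P : ℝ) + 1) * y ^ P := by
  induction P with
  | zero => simp [dSP, SP, bc]
  | succ P ih =>
    have h := bc_succ_mul r P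
    simp only [dSP, SP, sum_range_succ] at ih ⊢
    push_cast
    rw [pow_succ]
    linear_combination ih - (y ^ P * y) * h

theorem SP_zero (r : ℝ) (P : ℕ) : SP r P 0 = 1 := by
  simp [SP]

theorem SP_pow_ge (q : ℕ) (hq : 1 ≤ q) (P : ℕ) (y : ℝ) (hy0 : 0 ≤ y) (hy1 : y ≤ 1) :
    1 - y ≤ SP (1 / (q : ℝ)) P y ^ q := by
  have hq' : (1 : ℝ) ≤ (q : ℝ) := by exact_mod_cast hq
  have hq0 : (0 : ℝ) < (q : ℝ) := by linarith
  set r : ℝ := 1 / (q : ℝ) with hr
  have hr0 : 0 < r := by positivity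
  have hr1 : r ≤ 1 := by
    rw [hr, div_le_one hq0]
    exact hq'
  have hqr : (q : ℝ) * r = 1 := by
    rw [hr]
    field_simp
  rcases eq_or_lt_of_le hy1 with h1 | h1
  · rw [h1]
    have := SP_nonneg' r hr0 hr1 P 1 zero_le_one le_rfl
    have h2 : 0 ≤ SP r P 1 ^ q := pow_nonneg this q
    linarith
  · -- the quotient is monotone
    have hder : ∀ z : ℝ, z < 1 → HasDerivAt (fun z => SP r P z ^ q / (1 - z))
        ((((q : ℝ) * SP r P z ^ (q - 1) * dSP r P z) * (1 - z) - SP r P z ^ q * (-1))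
          / (1 - z) ^ 2) z := by
      intro z hz
      have hne : (1 - z) ≠ 0 := by linarith
      have e : HasDerivAt (fun z : ℝ => 1 - z) (-1) z := by
        simpa using (hasDerivAt_id z).const_sub 1
      exact ((hasDerivAt_SP r P z).fun_pow q).fun_div e hne
    have hmono : MonotoneOn (fun z => SP r P z ^ q / (1 - z)) (Set.Ico (0 : ℝ) 1) := by
      refine monotoneOn_of_deriv_nonneg (convex_Ico 0 1) ?_ ?_ ?_
      · intro z hz
        exact (hder z hz.2).continuousAt.continuousWithinAt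
      · intro z hz
        rw [interior_Ico] at hz
        exact (hder z hz.2).differentiableAt.differentiableWithinAt
      · intro z hz
        rw [interior_Ico] at hz
        rw [(hder z hz.2).deriv]
        have hS := SP_nonneg' r hr0 hr1 P z hz.1.le hz.2.le
        have hode := SP_ode r P z
        have hrhs : 0 ≤ bc r P * ((P : ℝ) + 1) * z ^ P :=
          mul_nonneg (mul_nonneg (bc_nonneg r hr0.le hr1 P) (by positivity))
            (pow_nonneg hz.1.le P)
        refine div_nonneg ?_ (by positivity)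
        have hpow : SP r P z ^ q = SP r P z ^ (q - 1) * SP r P z := by
          rw [← pow_succ, Nat.sub_add_cancel hq]
        have hS1 : 0 ≤ SP r P z ^ (q - 1) := pow_nonneg hS _
        have key : ((q : ℝ) * SP r P z ^ (q - 1) * dSP r P z) * (1 - z) - SP r P z ^ q * (-1)
            = (q : ℝ) * SP r P z ^ (q - 1) * (bc r P * ((P : ℝ) + 1) * z ^ P) := by
          rw [hpow, ← hode]
          linear_combination (-(SP r P z ^ (q - 1) * SP r P z)) * hqr
        rw [key]
        exact mul_nonneg (mul_nonneg hq0.le hS1) hrhs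
    have h := hmono (Set.mem_Ico.2 ⟨le_rfl, zero_lt_one⟩) (Set.mem_Ico.2 ⟨hy0, h1⟩) hy0
    simp only [SP_zero, one_pow, sub_zero, div_one] at h
    have hpos : 0 < 1 - y := by linarith
    rwa [le_div_iff₀ hpos, one_mul] at h

end Vale.Agent.P170
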