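import Vale.Agent.P170.UB.Recur
import Vale.Agent.P170.UB.Poisson
import Vale.Agent.P170.UB.Power
import Vale.Agent.P170.UB.Decouple

namespace Vale.Agent.P170

open Finset

section cavg
variable {L : Type} [Fintype L] [DecidableEq L]

lemma cavg_mono {F F' : (L → ℕ) → ℝ} (h : ∀ a, F a ≤ F' a) (R : ℕ) :
    ∀ a, (cavg^[R] F) a ≤ (cavg^[R] F') a := by
  induction R with
  | zero => exact h
  | succ R ih =>
    intro a
    rw [Function.iterate_succ_apply', Function.iterate_succ_apply']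
    have e : ∀ G : (L → ℕ) → ℝ, cavg G a
        = (∑ l : L, G (a + Pi.single l 1)) / (Fintype.card L : ℝ) := fun G => rfl
    rw [e, e]
    apply div_le_div_of_nonneg_right _ (Nat.cast_nonneg _)
    exact Finset.sum_le_sum (fun l _ => ih _)

lemma cavg_smul (c : ℝ) (F : (L → ℕ) → ℝ) (R : ℕ) :
    ∀ a, (cavg^[R] (fun a => c * F a)) a = c * (cavg^[R] F) a := by
  induction R with
  | zero => intro a; rfl
  | succ R ih =>
    intro a
    rw [Function.iterate_succ_apply', Function.iterate_succ_apply']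
    have e : ∀ G : (L → ℕ) → ℝ, cavg G a
        = (∑ l : L, G (a + Pi.single l 1)) / (Fintype.card L : ℝ) := fun G => rfl
    rw [e, e, Finset.sum_congr rfl (fun l _ => ih _), ← Finset.mul_sum, mul_div_assoc]

end cavg

lemma GN_le_of_pow (N₀ q : ℕ) (hq : 1 ≤ q) (z G : ℝ) (hz0 : 0 ≤ z) (hz1 : z ≤ 1) (hG : 0 ≤ G)
    (hzG : z ≤ G ^ q) : GN (N₀ ^ q) z ≤ N₀ * G := by
  have h1 : GN (N₀ ^ q) z ≤ 1 := by
    unfold GN
    have : 0 ≤ (1 - z) ^ (N₀ ^ q) := pow_nonneg (by linarith) _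
    linarith
  have h2 : GN (N₀ ^ q) z ≤ ((N₀ ^ q : ℕ) : ℝ) * z := by
    unfold GN
    have := one_add_mul_le_pow (a := -z) (by linarith) (N₀ ^ q)
    have e : 1 + -z = 1 - z := by ring
    rw [e] at this
    linarith
  set t := (N₀ : ℝ) * G with ht
  have ht0 : 0 ≤ t := by positivity
  rcases le_total 1 t with h | h
  · exact h1.trans h
  · have h3 : ((N₀ ^ q : ℕ) : ℝ) * z ≤ t ^ q := by
      rw [ht, mul_pow]
      push_cast
      exact mul_le_mul_of_nonneg_left hzG (by positivity)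
    have h4 : t ^ q ≤ t := pow_le_of_le_one ht0 h (by omega)
    linarith

lemma Wf_eq (x : ℝ) (a b : ℕ) : Wf x a b = 1 - (1 - x ^ a) * (1 - x ^ b) := by
  unfold Wf
  rw [pow_add]; ring

lemma double_sum_SP (s t : Finset ℕ) (w y c : ℕ → ℝ) :
    ∑ i ∈ s, ∑ j ∈ s, w i * w j * (1 - ∑ p ∈ t, c p * (y i * y j) ^ (p + 1))
      = (∑ i ∈ s, w i) ^ 2 - ∑ p ∈ t, c p * (∑ i ∈ s, w i * y i ^ (p + 1)) ^ 2 := by
  have h1 : ∀ i j, w i * w j * (1 - ∑ p ∈ t, c p * (y i * y j) ^ (p + 1))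
      = w i * w j - ∑ p ∈ t, c p * ((w i * y i ^ (p + 1)) * (w j * y j ^ (p + 1))) := by
    intro i j
    rw [mul_sub, mul_one, Finset.mul_sum]
    congr 1
    refine Finset.sum_congr rfl (fun p _ => ?_)
    rw [mul_pow]; ring
  simp only [h1, Finset.sum_sub_distrib]
  congr 1
  · rw [sq, Finset.sum_mul_sum]
  · have h2 : ∀ i ∈ s, ∑ j ∈ s, ∑ p ∈ t, c p * ((w i * y i ^ (p + 1)) * (w j * y j ^ (p + 1)))
        = ∑ p ∈ t, ∑ j ∈ s, c p * ((w i * y i ^ (p + 1)) * (w j * y j ^ (p + 1))) :=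
      fun i _ => Finset.sum_comm
    rw [Finset.sum_congr rfl h2, Finset.sum_comm]
    refine Finset.sum_congr rfl (fun p _ => ?_)
    rw [sq, Finset.sum_mul_sum, Finset.mul_sum]
    refine Finset.sum_congr rfl (fun i _ => ?_)
    rw [Finset.mul_sum]

lemma Xi_le (r μ x : ℝ) (P D R : ℕ) (hr0 : 0 ≤ r) (hr1 : r ≤ 1) (hμ : 0 ≤ μ) (hx0 : 0 ≤ x)
    (hx1 : x ≤ 1) (hDR : D ≤ R) :
    ∑ i ∈ range (R + 1), ∑ j ∈ range (R + 1),
        μ ^ i / (i.factorial : ℝ) * (μ ^ j / (j.factorial : ℝ)) * SP r P ((1 - x ^ i) * (1 - x ^ j))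
      ≤ Real.exp (2 * μ) - Sig r μ x P D := by
  unfold SP
  rw [double_sum_SP (range (R + 1)) (range P) (fun i => μ ^ i / (i.factorial : ℝ))
    (fun i => 1 - x ^ i) (bc r)]
  have h1 : ∑ i ∈ range (R + 1), μ ^ i / (i.factorial : ℝ) ≤ Real.exp μ :=
    Real.sum_le_exp_of_nonneg hμ _
  have h0 : 0 ≤ ∑ i ∈ range (R + 1), μ ^ i / (i.factorial : ℝ) :=
    Finset.sum_nonneg (fun i _ => by positivity)
  have h2 : (∑ i ∈ range (R + 1), μ ^ i / (i.factorial : ℝ)) ^ 2 ≤ Real.exp (2 * μ) := by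
    have e : Real.exp (2 * μ) = Real.exp μ ^ 2 := by
      rw [← Real.exp_nat_mul]; norm_num
    rw [e]
    exact pow_le_pow_left₀ h0 h1 2
  have h3 : Sig r μ x P D
      ≤ ∑ p ∈ range P, bc r p *
        (∑ i ∈ range (R + 1), μ ^ i / (i.factorial : ℝ) * (1 - x ^ i) ^ (p + 1)) ^ 2 := by
    unfold Sig
    refine Finset.sum_le_sum (fun p _ => ?_)
    apply mul_le_mul_of_nonneg_left _ (bc_nonneg r hr0 hr1 p)
    have hterm : ∀ i, 0 ≤ μ ^ i / (i.factorial : ℝ) * (1 - x ^ i) ^ (p + 1) := by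
      intro i
      have : x ^ i ≤ 1 := pow_le_one₀ hx0 hx1
      have h' : 0 ≤ 1 - x ^ i := by linarith
      positivity
    apply pow_le_pow_left₀
    · unfold Amom
      exact Finset.sum_nonneg (fun i _ => hterm i)
    · unfold Amom
      apply Finset.sum_le_sum_of_subset_of_nonneg
      · intro i hi
        rw [Finset.mem_range] at hi ⊢
        omega
      · intro i _ _
        exact hterm i
  linarith

section field
variable {V : Type} [DecidableEq V] [Fintype V] [Nonempty V]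

/-- bound for the pure-field end of the interpolation -/
lemma field_bound (η θ μ : ℝ) (hη0 : 0 ≤ η) (hη1 : η ≤ 1) (hμ : 0 < μ) (N₀ q P D R : ℕ)
    (hq : 1 ≤ q) (hDR : D ≤ R) (Y : ℝ)
    (hY : Real.exp (2 * μ) - Sig (1 / (q : ℝ)) μ (1 - η) P D ≤ Y) :
    ((TH η (lit : V × Bool → Set (V → Bool)))^[R] (Psi (N₀ ^ q) θ 0)) ind Set.univ
      ≤ N₀ * ((R.factorial : ℝ) / (μ * (2 * (Fintype.card V : ℝ))) ^ R * Y ^ Fintype.card V) := by
  have hq0 : (0 : ℝ) < q := by exact_mod_cast hq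
  have hr0 : (0 : ℝ) ≤ 1 / (q : ℝ) := by positivity
  have hr1 : 1 / (q : ℝ) ≤ 1 := by
    rw [div_le_one hq0]; exact_mod_cast hq
  set x := 1 - η with hx
  have hx0 : 0 ≤ x := by rw [hx]; linarith
  have hx1 : x ≤ 1 := by rw [hx]; linarith
  have e0 : (Psi (N₀ ^ q) θ 0 : (Set (V → Bool) → ℝ) → Set (V → Bool) → ℝ)
      = fun φ X => (fun z => GN (N₀ ^ q) (θ ^ 0 * z)) (φ X) := rfl
  rw [e0, decouple η (fun z => GN (N₀ ^ q) (θ ^ 0 * z)) R, ← hx]
  set g : ℕ → ℕ → ℝ := fun i j => SP (1 / (q : ℝ)) P ((1 - x ^ i) * (1 - x ^ j)) with hg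
  have hy : ∀ i j : ℕ, 0 ≤ (1 - x ^ i) * (1 - x ^ j) ∧ (1 - x ^ i) * (1 - x ^ j) ≤ 1 := by
    intro i j
    have a1 : x ^ i ≤ 1 := pow_le_one₀ hx0 hx1
    have a2 : x ^ j ≤ 1 := pow_le_one₀ hx0 hx1
    have a3 : 0 ≤ x ^ i := by positivity
    have a4 : 0 ≤ x ^ j := by positivity
    constructor
    · exact mul_nonneg (by linarith) (by linarith)
    · nlinarith
  have hg0 : ∀ i j, 0 ≤ g i j := fun i j => SP_nonneg q hq P _ (hy i j).1 (hy i j).2
  have hF : ∀ a : V × Bool → ℕ,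
      GN (N₀ ^ q) (θ ^ 0 * ∏ v, Wf x (a (v, true)) (a (v, false)))
        ≤ N₀ * ∏ v, g (a (v, true)) (a (v, false)) := by
    intro a
    rw [pow_zero, one_mul]
    have hW0 : ∀ v, 0 ≤ Wf x (a (v, true)) (a (v, false)) := by
      intro v; rw [Wf_eq]; linarith [(hy (a (v, true)) (a (v, false))).2]
    have hW1 : ∀ v, Wf x (a (v, true)) (a (v, false)) ≤ 1 := by
      intro v; rw [Wf_eq]; linarith [(hy (a (v, true)) (a (v, false))).1]
    apply GN_le_of_pow N₀ q hq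
    · exact Finset.prod_nonneg (fun v _ => hW0 v)
    · exact Finset.prod_le_one (fun v _ => hW0 v) (fun v _ => hW1 v)
    · exact Finset.prod_nonneg (fun v _ => hg0 _ _)
    · rw [← Finset.prod_pow]
      apply Finset.prod_le_prod (fun v _ => hW0 v)
      intro v _
      rw [Wf_eq]
      exact SP_pow_ge q hq P _ (hy _ _).1 (hy _ _).2
  refine (cavg_mono hF R 0).trans ?_
  rw [cavg_smul]
  apply mul_le_mul_of_nonneg_left _ (Nat.cast_nonneg _)
  refine (poissonize g hg0 μ hμ R).trans ?_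
  apply mul_le_mul_of_nonneg_left _ (by positivity)
  apply pow_le_pow_left₀
  · exact Finset.sum_nonneg (fun i _ => Finset.sum_nonneg (fun j _ =>
      mul_nonneg (by positivity) (hg0 i j)))
  · exact (Xi_le _ μ x P D R hr0 hr1 hμ.le hx0 hx1 hDR).trans hY

end field

end Vale.Agent.P170
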