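import Vale.Agent.P170.UB.Pieces

namespace Vale.Agent.P170

open Finset Filter Topology

/-- explicit bound for finite `n` -/
theorem finite_bound (m : ℕ) (hm : 1 ≤ m) (c₀ u B : ℝ) (hc₀ : 0 < c₀) (hu0 : 0 < u) (hu1 : u < 1)
    (q P D : ℕ) (hq : 1 ≤ q) (hB0 : 0 < B)
    (hB : Real.exp (((m : ℝ) + 1) * c₀)
        - Sig (1 / (q : ℝ)) (((m : ℝ) + 1) * c₀ / 2) (1 - u ^ m) P D
      ≤ B * Real.exp (((m : ℝ) + 1) * c₀))
    (n : ℕ) (hn1 : m + 1 ≤ n)
    (hn2 : 2 * (((m : ℝ) + 1) ^ 2 / (2 ^ (m + 1) * (1 - u ^ (m + 1)) * m)) ≤ n)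
    (hn3 : D ≤ ⌊c₀ * n⌋₊ + m * ⌊c₀ * n⌋₊) (hn4 : 1 ≤ ⌊c₀ * n⌋₊ + m * ⌊c₀ * n⌋₊) :
    prV (Fin n) (m + 1) ⌊c₀ * n⌋₊
      ≤ 4 * Real.exp (2 * (((m : ℝ) + 1) ^ 2 / (2 ^ (m + 1) * (1 - u ^ (m + 1)) * m)) * (m * c₀)
            + ((m : ℝ) + 1) + 1 - Real.log (1 - u ^ (m + 1)))
          * (((⌊c₀ * n⌋₊ + m * ⌊c₀ * n⌋₊ : ℕ) : ℝ) + 1) * ((⌊c₀ * n⌋₊ + m * ⌊c₀ * n⌋₊ : ℕ) : ℝ)
          * Real.exp (n * (Real.log B - (m * c₀ / q) * Real.log (1 - u ^ (m + 1)))) := by
  set θ := 1 - u ^ (m + 1) with hθ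
  set a := ((m : ℝ) + 1) ^ 2 / (2 ^ (m + 1) * θ * m) with ha
  set M := ⌊c₀ * n⌋₊ with hM
  set R := M + m * M with hR
  set K := (m : ℝ) + 1 with hK
  set p := prV (Fin n) (m + 1) M with hp
  have hp0 : 0 ≤ p := prV_nonneg _ _ _
  have hm0 : (0 : ℝ) < m := by exact_mod_cast hm
  have hn0 : 0 < n := by omega
  have hn0' : (0 : ℝ) < n := by exact_mod_cast hn0
  have hq0 : (0 : ℝ) < q := by exact_mod_cast hq
  have hup : u ^ (m + 1) < 1 := pow_lt_one₀ hu0.le hu1 (by omega)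
  have hup0 : 0 < u ^ (m + 1) := by positivity
  have hθ0 : 0 < θ := by rw [hθ]; linarith
  have hθ1 : θ ≤ 1 := by rw [hθ]; linarith
  have ha0 : 0 ≤ a := by rw [ha]; positivity
  have hM1 : (M : ℝ) ≤ c₀ * n := Nat.floor_le (by positivity)
  have hM2 : c₀ * n < M + 1 := Nat.lt_floor_add_one _
  have hcard : Fintype.card (Fin n) = n := Fintype.card_fin n
  have hne : Nonempty (Fin n) := ⟨⟨0, hn0⟩⟩
  have hRK : (R : ℝ) = K * M := by rw [hR, hK]; push_cast; ring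
  -- kappa
  have hκeq : (m : ℝ) - epsn n m / θ = m * (1 - a / n) := by
    unfold epsn
    rw [ha, hK]
    field_simp
  have han : a / n ≤ 1 / 2 := by
    rw [div_le_iff₀ hn0']; linarith
  have hκ : 0 ≤ (m : ℝ) - epsn (Fintype.card (Fin n)) m / (1 - u ^ (m + 1)) := by
    rw [hcard, ← hθ, hκeq]
    exact mul_nonneg hm0.le (by linarith)
  obtain ⟨N₀, hN1, hN2⟩ := exists_N0 θ hθ0 hθ1 q (m * M) hq
  have h1 := interp_bound (V := Fin n) m (by rw [hcard]; exact hn1) u hu0.le hu1 hκ (N₀ ^ q) M (m * M)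
  rw [hcard, ← hθ, hκeq, ← hR, ← hp] at h1
  have hμ : 0 < K * c₀ / 2 := by rw [hK]; positivity
  have h2 := field_bound (V := Fin n) (u ^ m) θ (K * c₀ / 2) (by positivity)
    (pow_le_one₀ hu0.le hu1.le) hμ N₀ q P D R hq hn3 (B * Real.exp (K * c₀))
    (by
      have e : 2 * (K * c₀ / 2) = K * c₀ := by ring
      rw [e]; exact hB)
  rw [hcard] at h2
  set H := ((TH (u ^ m) (lit : Fin n × Bool → Set (Fin n → Bool)))^[R] (Psi (N₀ ^ q) θ 0))
    ind Set.univ with hH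
  -- the Stirling factor
  set y := K * c₀ * n with hy
  have hy1 : (R : ℝ) ≤ y := by
    rw [hRK, hy, mul_assoc]
    exact mul_le_mul_of_nonneg_left hM1 (by rw [hK]; positivity)
  have hy2 : y ≤ R + K := by
    rw [hRK, hy, mul_assoc]
    have : K * (c₀ * n) ≤ K * (M + 1) := mul_le_mul_of_nonneg_left hM2.le (by rw [hK]; positivity)
    linarith
  have h3 := stirling_factor R hn4 K y hy1 hy2
  have h4 : H ≤ N₀ * (Real.exp (K + 1) * R * B ^ n) := by
    refine h2.trans ?_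
    apply mul_le_mul_of_nonneg_left _ (Nat.cast_nonneg _)
    have e1 : K * c₀ / 2 * (2 * (n : ℝ)) = y := by rw [hy]; ring
    have e2 : (B * Real.exp (K * c₀)) ^ n = B ^ n * Real.exp y := by
      rw [mul_pow, ← Real.exp_nat_mul, hy]
      congr 2
      ring
    rw [e1, e2]
    calc (R.factorial : ℝ) / y ^ R * (B ^ n * Real.exp y)
        = ((R.factorial : ℝ) / y ^ R * Real.exp y) * B ^ n := by ring
      _ ≤ (Real.exp (K + 1) * R) * B ^ n := mul_le_mul_of_nonneg_right h3 (by positivity)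
  -- the binomial mode
  have h5 := choose_mode (m + 1) M (by omega)
  have e3 : (m + 1) * M = R := by rw [hR]; ring
  have e4 : (m + 1 - 1) * M = m * M := by simp
  rw [e3, e4] at h5
  have e5 : (((m + 1 : ℕ) : ℝ)) = K := by rw [hK]; push_cast; ring
  rw [e5] at h5
  have e6 : K - 1 = m := by rw [hK]; ring
  rw [e6] at h5
  have hCb : (0 : ℝ) < (R.choose M : ℝ) := by
    have : 0 < R.choose M := Nat.choose_pos (by rw [hR]; omega)
    exact_mod_cast this
  have hH0 : 0 ≤ N₀ * (Real.exp (K + 1) * R * B ^ n) := by positivity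
  have hmp : (0 : ℝ) < (m : ℝ) ^ (m * M) := by positivity
  -- combine
  have h6 : (R.choose M : ℝ) * ((m : ℝ) * (1 - a / n)) ^ (m * M) * (GN (N₀ ^ q) (θ ^ (m * M)) * p)
      ≤ (((R : ℝ) + 1) * ((R.choose M : ℝ) * (m : ℝ) ^ (m * M)))
        * (N₀ * (Real.exp (K + 1) * R * B ^ n)) := by
    refine h1.trans ?_
    calc K ^ R * H ≤ K ^ R * (N₀ * (Real.exp (K + 1) * R * B ^ n)) :=
          mul_le_mul_of_nonneg_left h4 (by rw [hK]; positivity)
      _ ≤ _ := mul_le_mul_of_nonneg_right h5 hH0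
  have h7 : (1 - a / n) ^ (m * M) * (GN (N₀ ^ q) (θ ^ (m * M)) * p)
      ≤ ((R : ℝ) + 1) * (N₀ * (Real.exp (K + 1) * R * B ^ n)) := by
    rw [mul_pow] at h6
    have hpos : 0 < (R.choose M : ℝ) * (m : ℝ) ^ (m * M) := by positivity
    have e7 : (R.choose M : ℝ) * ((m : ℝ) ^ (m * M) * (1 - a / n) ^ (m * M))
          * (GN (N₀ ^ q) (θ ^ (m * M)) * p)
        = ((R.choose M : ℝ) * (m : ℝ) ^ (m * M))
          * ((1 - a / n) ^ (m * M) * (GN (N₀ ^ q) (θ ^ (m * M)) * p)) := by ring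
    have e8 : (((R : ℝ) + 1) * ((R.choose M : ℝ) * (m : ℝ) ^ (m * M)))
          * (N₀ * (Real.exp (K + 1) * R * B ^ n))
        = ((R.choose M : ℝ) * (m : ℝ) ^ (m * M))
          * (((R : ℝ) + 1) * (N₀ * (Real.exp (K + 1) * R * B ^ n))) := by ring
    rw [e7, e8] at h6
    exact le_of_mul_le_mul_left h6 hpos
  have h8 : Real.exp (-(2 * a * (m * c₀))) ≤ (1 - a / n) ^ (m * M) := by
    apply kappa_factor a (m * c₀) ha0 n hn2 hn0
    push_cast
    rw [mul_assoc]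
    exact mul_le_mul_of_nonneg_left hM1 hm0.le
  have h9 : Real.exp (-(2 * a * (m * c₀))) * (1 / 2 * p)
      ≤ (1 - a / n) ^ (m * M) * (GN (N₀ ^ q) (θ ^ (m * M)) * p) := by
    apply mul_le_mul h8 (mul_le_mul_of_nonneg_right hN1 hp0) (by positivity)
    exact pow_nonneg (by linarith) _
  have hlog : 0 ≤ -Real.log θ := by
    have := Real.log_nonpos hθ0.le hθ1
    linarith
  have h10 : (N₀ : ℝ) ≤ 2 * Real.exp ((m * c₀ * n / q + 1) * (-Real.log θ)) := by
    refine hN2.trans ?_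
    apply mul_le_mul_of_nonneg_left _ (by norm_num)
    apply Real.exp_le_exp.2
    apply mul_le_mul_of_nonneg_right _ hlog
    have : ((m * M : ℕ) : ℝ) / q ≤ m * c₀ * n / q := by
      apply div_le_div_of_nonneg_right _ hq0.le
      push_cast
      rw [mul_assoc]
      exact mul_le_mul_of_nonneg_left hM1 hm0.le
    linarith
  have h11 : B ^ n = Real.exp (n * Real.log B) := by
    rw [Real.exp_nat_mul, Real.exp_log hB0]
  have h12 : Real.exp (-(2 * a * (m * c₀))) * (1 / 2 * p)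
      ≤ ((R : ℝ) + 1) * ((2 * Real.exp ((m * c₀ * n / q + 1) * (-Real.log θ)))
          * (Real.exp (K + 1) * R * Real.exp (n * Real.log B))) := by
    refine (h9.trans h7).trans ?_
    rw [h11]
    apply mul_le_mul_of_nonneg_left _ (by positivity)
    exact mul_le_mul_of_nonneg_right h10 (by positivity)
  have h13 : p = 2 * Real.exp (2 * a * (m * c₀)) * (Real.exp (-(2 * a * (m * c₀))) * (1 / 2 * p)) := by
    have : Real.exp (2 * a * (m * c₀)) * Real.exp (-(2 * a * (m * c₀))) = 1 := by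
      rw [← Real.exp_add]; simp
    calc p = (Real.exp (2 * a * (m * c₀)) * Real.exp (-(2 * a * (m * c₀)))) * p := by
          rw [this, one_mul]
      _ = _ := by ring
  rw [h13]
  refine (mul_le_mul_of_nonneg_left h12 (by positivity)).trans (le_of_eq ?_)
  have e9 : Real.exp (2 * a * (m * c₀) + K + 1 - Real.log θ)
        * Real.exp (n * (Real.log B - (m * c₀ / q) * Real.log θ))
      = Real.exp (2 * a * (m * c₀)) * Real.exp ((m * c₀ * n / q + 1) * (-Real.log θ))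
        * Real.exp (K + 1) * Real.exp (n * Real.log B) := by
    rw [← Real.exp_add, ← Real.exp_add, ← Real.exp_add, ← Real.exp_add]
    congr 1
    field_simp
    ring
  calc 2 * Real.exp (2 * a * (m * c₀)) * (((R : ℝ) + 1)
        * ((2 * Real.exp ((m * c₀ * n / q + 1) * (-Real.log θ)))
          * (Real.exp (K + 1) * R * Real.exp (n * Real.log B))))
      = 4 * (Real.exp (2 * a * (m * c₀)) * Real.exp ((m * c₀ * n / q + 1) * (-Real.log θ))
        * Real.exp (K + 1) * Real.exp (n * Real.log B)) * ((R : ℝ) + 1) * R := by ring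
    _ = _ := by rw [← e9]; ring

end Vale.Agent.P170
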