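import Vale.Agent.P170.UB.Basic
import Vale.Agent.P170.Numeric

namespace Vale.Agent.P170

open Finset

section kl
variable {Ω : Type}

/-- `kl h S = 1` if `S` is nonempty and disjoint from `h`, and `0` otherwise -/
noncomputable def kl (h S : Set Ω) : ℝ := ind S - ind (S ∩ h)

lemma kl_of_empty {h S : Set Ω} (hS : ¬ S.Nonempty) : kl h S = 0 := by
  unfold kl
  rw [ind_of_not_nonempty hS, ind_of_not_nonempty (fun h' => hS (h'.mono Set.inter_subset_left))]
  ring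

lemma kl_of_nonempty {h S : Set Ω} (hS : S.Nonempty) : kl h S = 1 - ind (S ∩ h) := by
  unfold kl
  rw [ind_of_nonempty hS]

lemma kl_nonneg (h S : Set Ω) : 0 ≤ kl h S := by
  unfold kl
  have := ind_mono (Set.inter_subset_left : S ∩ h ⊆ S)
  linarith

lemma prod_kl {J : Type} [Fintype J] [Nonempty J] (h : Set Ω) (S : J → Set Ω) :
    ∏ j, kl h (S j) = (∏ j, ind (S j)) * kl h (⋃ j, S j) := by
  classical
  by_cases hall : ∀ j, (S j).Nonempty
  · have h1 : ∏ j, ind (S j) = 1 := Finset.prod_eq_one (fun j _ => ind_of_nonempty (hall j))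
    have hU : (⋃ j, S j).Nonempty := by
      obtain ⟨j⟩ := (inferInstance : Nonempty J)
      obtain ⟨x, hx⟩ := hall j
      exact ⟨x, Set.mem_iUnion.2 ⟨j, hx⟩⟩
    rw [h1, one_mul, kl_of_nonempty hU]
    by_cases hk : ((⋃ j, S j) ∩ h).Nonempty
    · rw [ind_of_nonempty hk]
      obtain ⟨x, hx, hxh⟩ := hk
      obtain ⟨j, hj⟩ := Set.mem_iUnion.1 hx
      have : kl h (S j) = 0 := by
        have hne : (S j ∩ h).Nonempty := ⟨x, hj, hxh⟩
        rw [kl_of_nonempty (hall j), ind_of_nonempty hne]; ring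
      rw [Finset.prod_eq_zero (Finset.mem_univ j) this]; ring
    · rw [ind_of_not_nonempty hk]
      have : ∀ j, kl h (S j) = 1 := by
        intro j
        rw [kl_of_nonempty (hall j), ind_of_not_nonempty]
        · ring
        · rintro ⟨x, hx, hxh⟩
          exact hk ⟨x, Set.mem_iUnion.2 ⟨j, hx⟩, hxh⟩
      rw [Finset.prod_eq_one (fun j _ => this j)]; ring
  · push Not at hall
    obtain ⟨j, hj⟩ := hall
    have hj' : ¬ (S j).Nonempty := by
      rw [Set.not_nonempty_iff_eq_empty]; exact hj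
    rw [Finset.prod_eq_zero (Finset.mem_univ j) (kl_of_empty hj'),
      Finset.prod_eq_zero (Finset.mem_univ j) (ind_of_not_nonempty hj'), zero_mul]

lemma sum_kl_general {A : Type} [Fintype A] (h : A → Set Ω) (X : Set Ω) (hX : X.Nonempty) :
    ∑ a : A, kl (h a) X = (Nat.card {a : A // ¬ (X ∩ h a).Nonempty} : ℝ) := by
  have h1 : ∀ a : A, kl (h a) X = 1 - ind (X ∩ h a) := fun a => kl_of_nonempty hX
  rw [Finset.sum_congr rfl (fun a _ => h1 a), Finset.sum_sub_distrib, sum_ind_general]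
  simp

end kl

section lit
variable {V : Type} [DecidableEq V] [Fintype V]

lemma kill_lit_iff (X : Set (V → Bool)) (σ₀ : V → Bool) (h₀ : σ₀ ∈ X) (l : V × Bool) :
    ¬ (X ∩ lit l).Nonempty ↔ l.1 ∈ frozen X ∧ l.2 = !(σ₀ l.1) := by
  obtain ⟨v, b⟩ := l
  constructor
  · intro hkill
    have hk : ∀ σ ∈ X, σ v = !b := by
      intro σ hσ
      by_contra hne
      apply hkill
      refine ⟨σ, hσ, ?_⟩
      show σ v = b
      cases hb : b <;> cases hs : σ v <;> simp_all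
    refine ⟨?_, ?_⟩
    · rw [mem_frozen]
      intro σ hσ τ hτ
      rw [hk σ hσ, hk τ hτ]
    · show b = !(σ₀ v)
      rw [hk σ₀ h₀]; simp
  · rintro ⟨hfr, hb⟩ ⟨σ, hσ, hσl⟩
    have h1 : σ v = σ₀ v := (mem_frozen X v).1 hfr σ hσ σ₀ h₀
    have h2 : σ v = b := hσl
    have h3 : b = !(σ₀ v) := hb
    rw [h1] at h2
    rw [← h2] at h3
    cases hs : σ₀ v <;> simp_all

noncomputable def killLitEquiv (X : Set (V → Bool)) (σ₀ : V → Bool) (h₀ : σ₀ ∈ X) :
    {l : V × Bool // ¬ (X ∩ lit l).Nonempty} ≃ {v : V // v ∈ frozen X} where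
  toFun l := ⟨l.1.1, ((kill_lit_iff X σ₀ h₀ l.1).1 l.2).1⟩
  invFun v := ⟨(v.1, !(σ₀ v.1)), (kill_lit_iff X σ₀ h₀ _).2 ⟨v.2, rfl⟩⟩
  left_inv l := by
    apply Subtype.ext
    exact Prod.ext rfl ((kill_lit_iff X σ₀ h₀ l.1).1 l.2).2.symm
  right_inv v := rfl

lemma card_kill_lit (X : Set (V → Bool)) (hX : X.Nonempty) :
    Nat.card {l : V × Bool // ¬ (X ∩ lit l).Nonempty} = (frozen X).card := by
  obtain ⟨σ₀, h₀⟩ := hX
  rw [Nat.card_congr (killLitEquiv X σ₀ h₀), Nat.card_eq_fintype_card, Fintype.card_coe]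

lemma sum_kl_lit (X : Set (V → Bool)) (hX : X.Nonempty) :
    ∑ l : V × Bool, kl (lit l) X = ((frozen X).card : ℝ) := by
  rw [sum_kl_general _ X hX, card_kill_lit X hX]

lemma sum_kl_clause {k : ℕ} (X : Set (V → Bool)) (hX : X.Nonempty) :
    ∑ c : Clause V k, kl (hset c) X = ((frozen X).card.choose k : ℝ) := by
  rw [sum_kl_general _ X hX, card_kill X hX]

end lit

section numeric

lemma pow_sub_pow_le_mul (a b : ℝ) (hb : 0 ≤ b) (hab : b ≤ a) (ha : a ≤ 1) (k : ℕ) :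
    a ^ k - b ^ k ≤ k * (a - b) := by
  induction k with
  | zero => simp
  | succ k ih =>
    have h1 : b ^ k ≤ 1 := pow_le_one₀ hb (hab.trans ha)
    have h2 : 0 ≤ a ^ k - b ^ k := sub_nonneg.2 (pow_le_pow_left₀ hb hab k)
    have e : a ^ (k + 1) - b ^ (k + 1) = a * (a ^ k - b ^ k) + (a - b) * b ^ k := by ring
    rw [e]
    push_cast
    have h3 : a * (a ^ k - b ^ k) ≤ 1 * (a ^ k - b ^ k) := mul_le_mul_of_nonneg_right ha h2
    have h4 : (a - b) * b ^ k ≤ (a - b) * 1 := mul_le_mul_of_nonneg_left h1 (by linarith)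
    linarith

lemma tangent_ineq (Q q : ℝ) (hQ : 0 ≤ Q) (hq : 0 ≤ q) (m : ℕ) :
    ((m : ℝ) + 1) * q ^ m * Q ≤ Q ^ (m + 1) + m * q ^ (m + 1) := by
  induction m with
  | zero => simp
  | succ m ih =>
    have h1 : 0 ≤ (Q - q) * (Q ^ (m + 1) - q ^ (m + 1)) := by
      rcases le_total q Q with h | h
      · exact mul_nonneg (by linarith) (sub_nonneg.2 (pow_le_pow_left₀ hq h _))
      · exact mul_nonneg_of_nonpos_of_nonpos (by linarith)
          (sub_nonpos.2 (pow_le_pow_left₀ hQ h _))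
    have h2 := mul_le_mul_of_nonneg_left ih hq
    push_cast
    have e1 : Q ^ (m + 1 + 1) + ((m : ℝ) + 1) * q ^ (m + 1 + 1)
        - ((m : ℝ) + 1 + 1) * q ^ (m + 1) * Q
        = (Q - q) * (Q ^ (m + 1) - q ^ (m + 1))
          + (q * (Q ^ (m + 1) + m * q ^ (m + 1)) - q * (((m : ℝ) + 1) * q ^ m * Q)) := by ring
    linarith

lemma kappa_lower (n f k : ℕ) (hk : 1 ≤ k) (hkn : k ≤ n) (hf : f ≤ n) :
    ((f : ℝ) / n) ^ k - (k : ℝ) ^ 2 / n ≤ (f.choose k : ℝ) / (n.choose k : ℝ) := by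
  have hn0 : (0 : ℝ) < n := by exact_mod_cast (hk.trans hkn)
  have hCn : (0 : ℝ) < (n.choose k : ℝ) := by exact_mod_cast Nat.choose_pos hkn
  have h1 : (((f - k : ℕ) : ℝ) / n) ^ k ≤ (f.choose k : ℝ) / (n.choose k : ℝ) := by
    rw [div_pow, div_le_div_iff₀ (by positivity) hCn]
    have := choose_ge_pow_ratio f n k
    have h2 : ((n.choose k * (f - k) ^ k : ℕ) : ℝ) ≤ ((f.choose k * n ^ k : ℕ) : ℝ) := by
      exact_mod_cast this
    push_cast at h2
    linarith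
  have h3 : (f : ℝ) - k ≤ ((f - k : ℕ) : ℝ) := by
    have h3 : f ≤ (f - k) + k := by omega
    have h4 : (f : ℝ) ≤ ((f - k : ℕ) : ℝ) + k := by exact_mod_cast h3
    linarith
  have h5 : ((f - k : ℕ) : ℝ) ≤ f := by exact_mod_cast Nat.sub_le f k
  have h6 : (f : ℝ) ≤ n := by exact_mod_cast hf
  have h7 := pow_sub_pow_le_mul ((f : ℝ) / n) (((f - k : ℕ) : ℝ) / n) (by positivity)
    (div_le_div_of_nonneg_right h5 hn0.le) ((div_le_one hn0).2 h6) k
  have h8 : (k : ℝ) * ((f : ℝ) / n - ((f - k : ℕ) : ℝ) / n) ≤ (k : ℝ) ^ 2 / n := by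
    rw [← sub_div, ← mul_div_assoc]
    apply div_le_div_of_nonneg_right _ hn0.le
    have hk0 : (0 : ℝ) ≤ k := Nat.cast_nonneg k
    nlinarith
  linarith

/-- the basic numerical inequality behind the one-step estimate -/
lemma kill_numeric (n f m : ℕ) (hkn : m + 1 ≤ n) (hf : f ≤ n) (q : ℝ) (hq : 0 ≤ q) :
    ((m : ℝ) + 1) * q ^ m * ((f : ℝ) / (2 * n))
      ≤ (f.choose (m + 1) : ℝ) / ((n.choose (m + 1) : ℝ) * 2 ^ (m + 1))
        + m * q ^ (m + 1) + ((m : ℝ) + 1) ^ 2 / (n * 2 ^ (m + 1)) := by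
  have hn0 : (0 : ℝ) < n := by
    have : 0 < n := by omega
    exact_mod_cast this
  have h1 := kappa_lower n f (m + 1) (by omega) hkn hf
  have h2 := tangent_ineq ((f : ℝ) / (2 * n)) q (by positivity) hq m
  have h3 : ((f : ℝ) / (2 * n)) ^ (m + 1) = ((f : ℝ) / n) ^ (m + 1) / 2 ^ (m + 1) := by
    rw [div_pow, div_pow, mul_pow]
    field_simp
  have h4 : (f.choose (m + 1) : ℝ) / ((n.choose (m + 1) : ℝ) * 2 ^ (m + 1))
      = (f.choose (m + 1) : ℝ) / (n.choose (m + 1) : ℝ) / 2 ^ (m + 1) := by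
    rw [div_div]
  have h5 : ((m : ℝ) + 1) ^ 2 / (n * 2 ^ (m + 1)) = ((m : ℝ) + 1) ^ 2 / n / 2 ^ (m + 1) := by
    rw [div_div]
  rw [h4, h5]
  rw [h3] at h2
  push_cast at h1
  have h6 : ((f : ℝ) / n) ^ (m + 1) / 2 ^ (m + 1)
      ≤ ((f.choose (m + 1) : ℝ) / (n.choose (m + 1) : ℝ) + ((m : ℝ) + 1) ^ 2 / n) / 2 ^ (m + 1) := by
    apply div_le_div_of_nonneg_right _ (by positivity)
    linarith
  rw [add_div] at h6
  linarith

end numeric

end Vale.Agent.P170
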