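import Vale.Agent.P170.UB.Final
import Vale.Agent.P170.Thm1

namespace Vale.Agent.P170

open Finset Filter Topology

lemma tendsto_sq_mul_exp (C ρ : ℝ) (hρ : ρ < 0) :
    Tendsto (fun n : ℕ => C * (n : ℝ) ^ 2 * Real.exp (n * ρ)) atTop (𝓝 0) := by
  set δ := -ρ with hδ
  have hδ0 : 0 < δ := by rw [hδ]; linarith
  have h1 : Tendsto (fun n : ℕ => δ * (n : ℝ)) atTop atTop :=
    tendsto_natCast_atTop_atTop.const_mul_atTop hδ0
  have h2 := (Real.tendsto_pow_mul_exp_neg_atTop_nhds_zero 2).comp h1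
  have h3 := h2.const_mul (C / δ ^ 2)
  rw [mul_zero] at h3
  refine h3.congr (fun n => ?_)
  simp only [Function.comp]
  have e : -(δ * (n : ℝ)) = n * ρ := by rw [hδ]; ring
  rw [e]
  field_simp

/-- the general upper bound theorem: a numerical certificate implies unsatisfiability whp -/
theorem ub_main (m : ℕ) (hm : 1 ≤ m) (c₀ u : ℝ) (hc₀ : 0 < c₀) (hu0 : 0 < u) (hu1 : u < 1)
    (q P D : ℕ) (hq : 1 ≤ q) (hcert : Cert (m + 1) c₀ u q P D) :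
    ∀ c : ℝ, c₀ ≤ c → Tendsto (fun n : ℕ => satProb (m + 1) n ⌊c * (n : ℝ)⌋₊) atTop (𝓝 0) := by
  intro c hc
  obtain ⟨B, hB0, hB, hlog⟩ := hcert
  have e1 : (((m + 1 : ℕ) : ℝ)) = (m : ℝ) + 1 := by push_cast; ring
  have e2 : m + 1 - 1 = m := by simp
  rw [e1, e2] at hB
  rw [e1] at hlog
  have e3 : (m : ℝ) + 1 - 1 = m := by ring
  rw [e3] at hlog
  set θ := 1 - u ^ (m + 1) with hθ
  set a := ((m : ℝ) + 1) ^ 2 / (2 ^ (m + 1) * θ * m) with ha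
  set ρ := Real.log B - (m * c₀ / q) * Real.log θ with hρ
  have hρ0 : ρ < 0 := by rw [hρ]; linarith
  set C₁ := 4 * Real.exp (2 * a * (m * c₀) + ((m : ℝ) + 1) + 1 - Real.log θ) with hC₁
  have hC₁0 : 0 ≤ C₁ := by rw [hC₁]; positivity
  set K := (m : ℝ) + 1 with hK
  have hK0 : 0 < K := by rw [hK]; positivity
  have hlim := tendsto_sq_mul_exp (C₁ * (K * c₀ + 1) ^ 2) ρ hρ0
  refine squeeze_zero' (Eventually.of_forall (fun n => satProb_nonneg _ _ _)) ?_ hlim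
  have ev1 : ∀ᶠ n : ℕ in atTop, m + 1 ≤ n := eventually_ge_atTop _
  have ev2 : ∀ᶠ n : ℕ in atTop, ⌈2 * a⌉₊ ≤ n := eventually_ge_atTop _
  have ev3 : ∀ᶠ n : ℕ in atTop, ⌈((D : ℝ) + 1) / c₀⌉₊ ≤ n := eventually_ge_atTop _
  filter_upwards [ev1, ev2, ev3] with n hn1 hn2 hn3
  have hn0 : 0 < n := by omega
  have hn0' : (1 : ℝ) ≤ n := by exact_mod_cast hn0
  have hn2' : 2 * a ≤ n := (Nat.le_ceil _).trans (by exact_mod_cast hn2)
  have hn3' : ((D : ℝ) + 1) / c₀ ≤ n := (Nat.le_ceil _).trans (by exact_mod_cast hn3)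
  have hDM : D + 1 ≤ ⌊c₀ * (n : ℝ)⌋₊ := by
    apply Nat.le_floor
    push_cast
    rw [div_le_iff₀ hc₀] at hn3'
    linarith
  have hfb := finite_bound m hm c₀ u B hc₀ hu0 hu1 q P D hq hB0 hB n hn1 hn2'
    (by omega) (by omega)
  rw [satProb_eq _ _ _ hn1]
  have hfl : ⌊c₀ * (n : ℝ)⌋₊ ≤ ⌊c * (n : ℝ)⌋₊ :=
    Nat.floor_mono (mul_le_mul_of_nonneg_right hc (Nat.cast_nonneg _))
  refine (prV_anti (Fin n) (m + 1) hfl).trans (hfb.trans ?_)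
  rw [← hθ, ← ha, ← hρ, ← hC₁]
  set M := ⌊c₀ * (n : ℝ)⌋₊ with hM
  have hM1 : (M : ℝ) ≤ c₀ * n := Nat.floor_le (by positivity)
  have hR : ((M + m * M : ℕ) : ℝ) ≤ K * c₀ * n := by
    push_cast
    have : (M : ℝ) + m * M = K * M := by rw [hK]; ring
    rw [this, mul_assoc]
    exact mul_le_mul_of_nonneg_left hM1 hK0.le
  have hR0 : (0 : ℝ) ≤ ((M + m * M : ℕ) : ℝ) := Nat.cast_nonneg _
  have hexp : 0 ≤ Real.exp (n * ρ) := (Real.exp_pos _).le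
  apply mul_le_mul_of_nonneg_right _ hexp
  have h1 : ((M + m * M : ℕ) : ℝ) + 1 ≤ (K * c₀ + 1) * n := by nlinarith
  have h2 : ((M + m * M : ℕ) : ℝ) ≤ (K * c₀ + 1) * n := by nlinarith
  calc C₁ * (((M + m * M : ℕ) : ℝ) + 1) * ((M + m * M : ℕ) : ℝ)
      = C₁ * ((((M + m * M : ℕ) : ℝ) + 1) * ((M + m * M : ℕ) : ℝ)) := by ring
    _ ≤ C₁ * (((K * c₀ + 1) * n) * ((K * c₀ + 1) * n)) := by
        apply mul_le_mul_of_nonneg_left _ hC₁0
        exact mul_le_mul h1 h2 hR0 (by positivity)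
    _ = C₁ * (K * c₀ + 1) ^ 2 * (n : ℝ) ^ 2 := by ring

end Vale.Agent.P170
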