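import Vale.Agent.P170.UB.OneStep

namespace Vale.Agent.P170

open Finset

section mix
variable {Ω : Type}

/-- sub-probability mixtures of the functions `X ↦ ind (X ∩ Y)` -/
def IsMix (φ : Set Ω → ℝ) : Prop :=
  ∃ (ι : Type) (_ : Fintype ι) (P : ι → ℝ) (Y : ι → Set Ω),
    (∀ i, 0 ≤ P i) ∧ ∑ i, P i ≤ 1 ∧ ∀ X, φ X = ∑ i, P i * ind (X ∩ Y i)

lemma isMix_ind : IsMix (ind : Set Ω → ℝ) := by
  refine ⟨Unit, inferInstance, fun _ => 1, fun _ => Set.univ, fun _ => zero_le_one, by simp, ?_⟩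
  intro X
  simp

lemma isMix_fld (η : ℝ) (h0 : 0 ≤ η) (h1 : η ≤ 1) (h : Set Ω) {φ : Set Ω → ℝ} (hφ : IsMix φ) :
    IsMix (fld η h φ) := by
  obtain ⟨ι, _, P, Y, hP, hsum, hrep⟩ := hφ
  refine ⟨ι ⊕ ι, inferInstance, Sum.elim (fun i => (1 - η) * P i) (fun i => η * P i),
    Sum.elim Y (fun i => h ∩ Y i), ?_, ?_, ?_⟩
  · rintro (i | i)
    · exact mul_nonneg (by linarith) (hP i)
    · exact mul_nonneg h0 (hP i)
  · rw [Fintype.sum_sum_type]
    simp only [Sum.elim_inl, Sum.elim_inr]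
    rw [← Finset.mul_sum, ← Finset.mul_sum]
    nlinarith
  · intro X
    rw [Fintype.sum_sum_type]
    simp only [Sum.elim_inl, Sum.elim_inr]
    unfold fld
    rw [hrep, hrep, Finset.mul_sum, Finset.mul_sum]
    congr 1
    · refine Finset.sum_congr rfl (fun i _ => ?_)
      ring
    · refine Finset.sum_congr rfl (fun i _ => ?_)
      rw [Set.inter_assoc]
      ring

lemma GN_zero (N : ℕ) : GN N 0 = 0 := by simp [GN]

lemma GN_nonneg (N : ℕ) (z : ℝ) (h0 : 0 ≤ z) (h1 : z ≤ 1) : 0 ≤ GN N z := by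
  unfold GN
  have : (1 - z) ^ N ≤ 1 := pow_le_one₀ (by linarith) (by linarith)
  linarith

lemma GN_mono (N : ℕ) {z z' : ℝ} (h : z ≤ z') (h1 : z' ≤ 1) : GN N z ≤ GN N z' := by
  unfold GN
  have : (1 - z') ^ N ≤ (1 - z) ^ N := pow_le_pow_left₀ (by linarith) (by linarith) N
  linarith

lemma GN_concave (N : ℕ) (θ z : ℝ) (hθ0 : 0 ≤ θ) (hθ1 : θ ≤ 1) (hz : z ≤ 1) :
    θ * GN N z ≤ GN N (θ * z) := by
  unfold GN
  have hx : (1 : ℝ) ∈ Set.Ici (0 : ℝ) := by simp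
  have hy : (1 - z) ∈ Set.Ici (0 : ℝ) := by simp; linarith
  have h := (convexOn_pow (𝕜 := ℝ) N).2 hx hy (show (0 : ℝ) ≤ 1 - θ by linarith) hθ0 (by ring)
  simp only [smul_eq_mul, one_pow, mul_one] at h
  have e : 1 - θ + θ * (1 - z) = 1 - θ * z := by ring
  rw [e] at h
  linarith

lemma GN_mul_ind (N : ℕ) (t : ℝ) (X : Set Ω) : GN N (t * ind X) = GN N t * ind X := by
  by_cases hX : X.Nonempty
  · rw [ind_of_nonempty hX]; simp
  · rw [ind_of_not_nonempty hX]; simp [GN_zero]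

end mix

section step
variable {V : Type} [DecidableEq V] [Fintype V]

/-- the functional `(φ, X) ↦ G_N (θ ^ d φ(X))` -/
noncomputable def Psi {Ω : Type} (N : ℕ) (θ : ℝ) (d : ℕ) : (Set Ω → ℝ) → Set Ω → ℝ :=
  fun φ X => GN N (θ ^ d * φ X)

lemma avg_one_sub {B : Type} [Fintype B] [Nonempty B] (f : B → ℝ) :
    (∑ b : B, (1 - f b)) / (Fintype.card B : ℝ) = 1 - (∑ b : B, f b) / (Fintype.card B : ℝ) := by
  have hB : (Fintype.card B : ℝ) ≠ 0 := by exact_mod_cast Fintype.card_ne_zero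
  rw [Finset.sum_sub_distrib, sub_div]
  simp [hB]

lemma one_step_eps (m : ℕ) (hkn : m + 1 ≤ Fintype.card V) (u : ℝ) (hu0 : 0 ≤ u) (hu1 : u ≤ 1)
    (N d : ℕ) (φ : Set (V → Bool) → ℝ) (hφ : IsMix φ) (X : Set (V → Bool)) :
    TC (hset : Clause V (m + 1) → Set (V → Bool)) (Psi N (1 - u ^ (m + 1)) d) φ X
        + m * Psi N (1 - u ^ (m + 1)) (d + 1) φ X
      ≤ ((m : ℝ) + 1) * TH (u ^ m) (lit : V × Bool → Set (V → Bool)) (Psi N (1 - u ^ (m + 1)) d) φ X
        + epsn (Fintype.card V) m * Psi N (1 - u ^ (m + 1)) d φ X := by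
  obtain ⟨ι, _, P, Y, hP, hsum, hrep⟩ := hφ
  set θ := 1 - u ^ (m + 1) with hθ
  have hup : u ^ (m + 1) ≤ 1 := pow_le_one₀ hu0 hu1
  have hup0 : 0 ≤ u ^ (m + 1) := by positivity
  have hθ0 : 0 ≤ θ := by rw [hθ]; linarith
  have hθ1 : θ ≤ 1 := by rw [hθ]; linarith
  have hneC : Nonempty (Clause V (m + 1)) := nonempty_clause hkn
  have hVpos : 0 < Fintype.card V := by omega
  have hneV : Nonempty V := Fintype.card_pos_iff.1 hVpos
  set P' : ι → ℝ := fun i => θ ^ d * P i with hP'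
  have hP'0 : ∀ i, 0 ≤ P' i := fun i => mul_nonneg (by positivity) (hP i)
  set Z := ∑ i, P' i * ind (X ∩ Y i) with hZ
  have hZφ : θ ^ d * φ X = Z := by
    rw [hrep, hZ, Finset.mul_sum]
    refine Finset.sum_congr rfl (fun i _ => ?_)
    simp only [hP']; ring
  have hZ1 : Z ≤ 1 := by
    calc Z ≤ ∑ i, P i := by
          refine Finset.sum_le_sum (fun i _ => ?_)
          simp only [hP']
          have a1 : θ ^ d ≤ 1 := pow_le_one₀ hθ0 hθ1
          have a2 := ind_le_one (X ∩ Y i)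
          have a3 := ind_nonneg (X ∩ Y i)
          have a4 : θ ^ d * P i ≤ 1 * P i := mul_le_mul_of_nonneg_right a1 (hP i)
          have a5 : θ ^ d * P i * ind (X ∩ Y i) ≤ θ ^ d * P i * 1 :=
            mul_le_mul_of_nonneg_left a2 (mul_nonneg (by positivity) (hP i))
          linarith
      _ ≤ 1 := hsum
  have hgen : ∀ h : Set (V → Bool),
      θ ^ d * φ (X ∩ h) = Z - ∑ i, P' i * kl h (X ∩ Y i) := by
    intro h
    rw [hrep, hZ, Finset.mul_sum, ← Finset.sum_sub_distrib]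
    refine Finset.sum_congr rfl (fun i _ => ?_)
    simp only [hP', kl]
    rw [Set.inter_right_comm]
    ring
  have hb := binom_step m hkn P' hP'0 (fun i => X ∩ Y i) u hu0 (1 - Z) (by linarith) N
  rw [← hZ] at hb
  have eC : TC (hset : Clause V (m + 1) → Set (V → Bool)) (Psi N θ d) φ X
      = 1 - (∑ c : Clause V (m + 1), (1 * (∑ i, P' i * kl (hset c) (X ∩ Y i)) + (1 - Z)) ^ N)
          / (Fintype.card (Clause V (m + 1)) : ℝ) := by
    unfold TC Psi GN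
    rw [avg_one_sub]
    congr 2
    refine Finset.sum_congr rfl (fun c _ => ?_)
    rw [hgen]
    congr 1
    ring
  have eL : TH (u ^ m) (lit : V × Bool → Set (V → Bool)) (Psi N θ d) φ X
      = 1 - (∑ l : V × Bool, (u ^ m * (∑ i, P' i * kl (lit l) (X ∩ Y i)) + (1 - Z)) ^ N)
          / (Fintype.card (V × Bool) : ℝ) := by
    unfold TH Psi GN fld
    rw [avg_one_sub]
    congr 2
    refine Finset.sum_congr rfl (fun l _ => ?_)
    congr 1
    have := hgen (lit l)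
    have e : θ ^ d * ((1 - u ^ m) * φ X + u ^ m * φ (X ∩ lit l))
        = (1 - u ^ m) * (θ ^ d * φ X) + u ^ m * (θ ^ d * φ (X ∩ lit l)) := by ring
    rw [e, this, hZφ]
    ring
  have eD : Psi N θ (d + 1) φ X = 1 - (u ^ (m + 1) * Z + (1 - Z)) ^ N := by
    unfold Psi GN
    congr 2
    rw [pow_succ, mul_assoc, mul_comm θ, ← mul_assoc, hZφ, hθ]
    ring
  have e0 : Psi N θ d φ X = (Z + (1 - Z)) ^ N - (1 - Z) ^ N := by
    unfold Psi GN
    rw [hZφ]
    simp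
  rw [eC, eL, eD, e0]
  linarith

/-- the one-step inequality -/
lemma one_step (m : ℕ) (hkn : m + 1 ≤ Fintype.card V) (u : ℝ) (hu0 : 0 ≤ u) (hu1 : u < 1)
    (N d : ℕ) (φ : Set (V → Bool) → ℝ) (hφ : IsMix φ) (X : Set (V → Bool)) :
    TC (hset : Clause V (m + 1) → Set (V → Bool)) (Psi N (1 - u ^ (m + 1)) d) φ X
        + (m - epsn (Fintype.card V) m / (1 - u ^ (m + 1))) * Psi N (1 - u ^ (m + 1)) (d + 1) φ X
      ≤ ((m : ℝ) + 1) *
        TH (u ^ m) (lit : V × Bool → Set (V → Bool)) (Psi N (1 - u ^ (m + 1)) d) φ X := by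
  have h := one_step_eps m hkn u hu0 hu1.le N d φ hφ X
  set θ := 1 - u ^ (m + 1) with hθ
  have hup : u ^ (m + 1) < 1 := pow_lt_one₀ hu0 hu1 (by omega)
  have hup0 : 0 ≤ u ^ (m + 1) := by positivity
  have hθ0 : 0 < θ := by rw [hθ]; linarith
  have hθ1 : θ ≤ 1 := by rw [hθ]; linarith
  obtain ⟨ι, _, P, Y, hP, hsum, hrep⟩ := hφ
  have hφ1 : φ X ≤ 1 := by
    rw [hrep]
    calc ∑ i, P i * ind (X ∩ Y i) ≤ ∑ i, P i := by
          refine Finset.sum_le_sum (fun i _ => ?_)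
          have := mul_le_mul_of_nonneg_left (ind_le_one (X ∩ Y i)) (hP i)
          linarith
      _ ≤ 1 := hsum
  have hφ0 : 0 ≤ φ X := by
    rw [hrep]
    exact Finset.sum_nonneg (fun i _ => mul_nonneg (hP i) (ind_nonneg _))
  have hz1 : θ ^ d * φ X ≤ 1 := by
    have a1 : θ ^ d ≤ 1 := pow_le_one₀ hθ0.le hθ1
    nlinarith
  have hc := GN_concave N θ (θ ^ d * φ X) hθ0.le hθ1 hz1
  have e1 : Psi N θ (d + 1) φ X = GN N (θ * (θ ^ d * φ X)) := by
    unfold Psi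
    congr 1
    ring
  have e2 : Psi N θ d φ X = GN N (θ ^ d * φ X) := rfl
  rw [← e1, ← e2] at hc
  have heps := epsn_nonneg (Fintype.card V) m
  have h3 : epsn (Fintype.card V) m * Psi N θ d φ X
      ≤ epsn (Fintype.card V) m / θ * Psi N θ (d + 1) φ X := by
    rw [div_mul_eq_mul_div, le_div_iff₀ hθ0]
    have := mul_le_mul_of_nonneg_left hc heps
    linarith
  linarith

end step

end Vale.Agent.P170
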