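import Vale.Agent.P170.UB.KillLit

namespace Vale.Agent.P170

open Finset

variable {V : Type} [DecidableEq V] [Fintype V]

/-- the error term `k ^ 2 / (n 2 ^ k)`, `k = m + 1` -/
noncomputable def epsn (n m : ℕ) : ℝ := ((m : ℝ) + 1) ^ 2 / (n * 2 ^ (m + 1))

lemma epsn_nonneg (n m : ℕ) : 0 ≤ epsn n m := by
  unfold epsn; positivity

lemma per_family (m : ℕ) (hkn : m + 1 ≤ Fintype.card V) {J : Type} [Fintype J] [Nonempty J]
    (S : J → Set (V → Bool)) (q : ℝ) (hq : 0 ≤ q) :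
    ((m : ℝ) + 1) * q ^ m *
        ((∑ l : V × Bool, ∏ j, kl (lit l) (S j)) / (Fintype.card (V × Bool) : ℝ))
      ≤ (∑ c : Clause V (m + 1), ∏ j, kl (hset c) (S j)) / (Fintype.card (Clause V (m + 1)) : ℝ)
        + (m * q ^ (m + 1) + epsn (Fintype.card V) m) * ∏ j, ind (S j) := by
  simp only [prod_kl]
  rw [← Finset.mul_sum, ← Finset.mul_sum]
  by_cases hall : ∀ j, (S j).Nonempty
  · have h1 : ∏ j, ind (S j) = 1 := Finset.prod_eq_one (fun j _ => ind_of_nonempty (hall j))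
    have hU : (⋃ j, S j).Nonempty := by
      obtain ⟨j⟩ := (inferInstance : Nonempty J)
      obtain ⟨x, hx⟩ := hall j
      exact ⟨x, Set.mem_iUnion.2 ⟨j, hx⟩⟩
    rw [h1, one_mul, one_mul, mul_one, sum_kl_lit _ hU, sum_kl_clause _ hU, card_clause]
    have h2 := kill_numeric (Fintype.card V) (frozen (⋃ j, S j)).card m hkn
      (Finset.card_le_univ _) q hq
    have h3 : (Fintype.card (V × Bool) : ℝ) = 2 * (Fintype.card V : ℝ) := by
      rw [Fintype.card_prod, Fintype.card_bool]; push_cast; ring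
    rw [h3]
    unfold epsn
    push_cast
    linarith
  · push Not at hall
    obtain ⟨j, hj⟩ := hall
    have hj' : ¬ (S j).Nonempty := by
      rw [Set.not_nonempty_iff_eq_empty]; exact hj
    rw [Finset.prod_eq_zero (Finset.mem_univ j) (ind_of_not_nonempty hj')]
    simp

lemma pow_sum_expand {Ω ι : Type} [Fintype ι] (P : ι → ℝ) (f : ι → ℝ) (p : ℕ) :
    (∑ i, P i * f i) ^ p = ∑ g : Fin p → ι, (∏ j, P (g j)) * ∏ j, f (g j) := by
  rw [Fintype.sum_pow]
  refine Finset.sum_congr rfl (fun g _ => ?_)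
  rw [Finset.prod_mul_distrib]

/-- the moment inequality for `p + 1` replicas -/
lemma per_moment (m : ℕ) (hkn : m + 1 ≤ Fintype.card V) {ι : Type} [Fintype ι]
    (P : ι → ℝ) (hP : ∀ i, 0 ≤ P i) (X : ι → Set (V → Bool)) (q : ℝ) (hq : 0 ≤ q) (p : ℕ) :
    ((m : ℝ) + 1) * q ^ m *
        ((∑ l : V × Bool, (∑ i, P i * kl (lit l) (X i)) ^ (p + 1))
          / (Fintype.card (V × Bool) : ℝ))
      ≤ (∑ c : Clause V (m + 1), (∑ i, P i * kl (hset c) (X i)) ^ (p + 1))
          / (Fintype.card (Clause V (m + 1)) : ℝ)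
        + (m * q ^ (m + 1) + epsn (Fintype.card V) m) * (∑ i, P i * ind (X i)) ^ (p + 1) := by
  simp only [pow_sum_expand (Ω := V → Bool)]
  rw [Finset.sum_comm, Finset.sum_comm (s := (univ : Finset (Clause V (m + 1))))]
  simp only [← Finset.mul_sum]
  rw [Finset.sum_div, Finset.sum_div, Finset.mul_sum, Finset.mul_sum, ← Finset.sum_add_distrib]
  refine Finset.sum_le_sum (fun g _ => ?_)
  have hω : 0 ≤ ∏ j, P (g j) := Finset.prod_nonneg (fun j _ => hP _)
  have h := per_family m hkn (fun j => X (g j)) q hq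
  have h2 := mul_le_mul_of_nonneg_left h hω
  have e1 : ((m : ℝ) + 1) * q ^ m * (((∏ j, P (g j)) * ∑ l : V × Bool, ∏ j, kl (lit l) (X (g j)))
          / (Fintype.card (V × Bool) : ℝ))
      = (∏ j, P (g j)) * (((m : ℝ) + 1) * q ^ m *
        ((∑ l : V × Bool, ∏ j, kl (lit l) (X (g j))) / (Fintype.card (V × Bool) : ℝ))) := by ring
  rw [e1]
  refine h2.trans (le_of_eq ?_)
  ring

lemma avg_add_pow {B : Type} [Fintype B] (τ : B → ℝ) (s A K : ℝ) (N : ℕ) :
    (∑ b : B, (s * τ b + A) ^ N) / K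
      = ∑ p ∈ range (N + 1), (s ^ p * ((∑ b : B, τ b ^ p) / K)) * (A ^ (N - p) * (N.choose p : ℝ)) := by
  simp only [add_pow, mul_pow]
  rw [Finset.sum_comm, Finset.sum_div]
  refine Finset.sum_congr rfl (fun p _ => ?_)
  rw [Finset.sum_div, Finset.sum_div, Finset.mul_sum, Finset.sum_mul]
  refine Finset.sum_congr rfl (fun b _ => ?_)
  ring

lemma binom_step (m : ℕ) (hkn : m + 1 ≤ Fintype.card V) {ι : Type} [Fintype ι]
    (P : ι → ℝ) (hP : ∀ i, 0 ≤ P i) (X : ι → Set (V → Bool)) (u : ℝ) (hu : 0 ≤ u)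
    (A : ℝ) (hA : 0 ≤ A) (N : ℕ) :
    ((m : ℝ) + 1) * ((∑ l : V × Bool, (u ^ m * (∑ i, P i * kl (lit l) (X i)) + A) ^ N)
          / (Fintype.card (V × Bool) : ℝ))
      ≤ (∑ c : Clause V (m + 1), (1 * (∑ i, P i * kl (hset c) (X i)) + A) ^ N)
          / (Fintype.card (Clause V (m + 1)) : ℝ)
        + m * (u ^ (m + 1) * (∑ i, P i * ind (X i)) + A) ^ N
        + epsn (Fintype.card V) m * (((∑ i, P i * ind (X i)) + A) ^ N - A ^ N) := by
  set Z := ∑ i, P i * ind (X i) with hZ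
  have hneC : Nonempty (Clause V (m + 1)) := nonempty_clause hkn
  have hCpos : (Fintype.card (Clause V (m + 1)) : ℝ) ≠ 0 := by
    exact_mod_cast Fintype.card_ne_zero
  have hVpos : 0 < Fintype.card V := by omega
  have hneV : Nonempty V := Fintype.card_pos_iff.1 hVpos
  have hLpos : (Fintype.card (V × Bool) : ℝ) ≠ 0 := by
    exact_mod_cast Fintype.card_ne_zero
  rw [avg_add_pow, avg_add_pow]
  have e1 : (u ^ (m + 1) * Z + A) ^ N
      = ∑ p ∈ range (N + 1), ((u ^ (m + 1)) ^ p * Z ^ p) * (A ^ (N - p) * (N.choose p : ℝ)) := by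
    rw [add_pow]
    refine Finset.sum_congr rfl (fun p _ => ?_)
    rw [mul_pow]; ring
  have e2 : (Z + A) ^ N - A ^ N
      = ∑ p ∈ range (N + 1), (Z ^ p - if p = 0 then 1 else 0) * (A ^ (N - p) * (N.choose p : ℝ)) := by
    rw [add_pow]
    simp only [sub_mul, Finset.sum_sub_distrib, ite_mul, one_mul, zero_mul]
    rw [Finset.sum_ite_eq' (range (N + 1)) 0]
    simp
    refine Finset.sum_congr rfl (fun p _ => ?_)
    ring
  rw [e1, e2, Finset.mul_sum, Finset.mul_sum, Finset.mul_sum, ← Finset.sum_add_distrib,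
    ← Finset.sum_add_distrib]
  refine Finset.sum_le_sum (fun p _ => ?_)
  have hw : 0 ≤ A ^ (N - p) * (N.choose p : ℝ) := by positivity
  have key : ((m : ℝ) + 1) * ((u ^ m) ^ p * ((∑ l : V × Bool, (∑ i, P i * kl (lit l) (X i)) ^ p)
          / (Fintype.card (V × Bool) : ℝ)))
      ≤ 1 ^ p * ((∑ c : Clause V (m + 1), (∑ i, P i * kl (hset c) (X i)) ^ p)
          / (Fintype.card (Clause V (m + 1)) : ℝ))
        + m * ((u ^ (m + 1)) ^ p * Z ^ p)
        + epsn (Fintype.card V) m * (Z ^ p - if p = 0 then 1 else 0) := by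
    rcases p with _ | p
    · simp
      linarith
    · have h := per_moment m hkn P hP X (u ^ (p + 1)) (by positivity) p
      have e3 : (u ^ (p + 1)) ^ m = (u ^ m) ^ (p + 1) := by
        rw [← pow_mul, ← pow_mul, mul_comm]
      have e4 : (u ^ (p + 1)) ^ (m + 1) = (u ^ (m + 1)) ^ (p + 1) := by
        rw [← pow_mul, ← pow_mul, mul_comm]
      rw [e3, e4] at h
      simp only [one_pow, one_mul, Nat.succ_ne_zero, if_false, sub_zero, Nat.add_eq_zero_iff,
        one_ne_zero, and_false]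
      rw [← hZ] at h
      linarith
  have h2 := mul_le_mul_of_nonneg_right key hw
  linarith

end Vale.Agent.P170
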