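import Vale.Agent.P170.UB.Field
import Vale.Agent.P170.UB.Binom

namespace Vale.Agent.P170

open Finset

lemma exp_neg_two_mul_le (t : ℝ) (h0 : 0 ≤ t) (h1 : t ≤ 1 / 2) : Real.exp (-(2 * t)) ≤ 1 - t := by
  have h2 : 1 + 2 * t ≤ Real.exp (2 * t) := by
    have := Real.add_one_le_exp (2 * t)
    linarith
  have h3 : 0 < 1 + 2 * t := by linarith
  rw [Real.exp_neg]
  calc (Real.exp (2 * t))⁻¹ ≤ (1 + 2 * t)⁻¹ := inv_anti₀ h3 h2
    _ ≤ 1 - t := by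
        rw [inv_le_iff_one_le_mul₀ h3]
        nlinarith

/-- the factor coming from the error term of the one-step inequality -/
lemma kappa_factor (a c₁ : ℝ) (ha : 0 ≤ a) (n : ℕ) (hn : 2 * a ≤ n) (hn0 : 0 < n) (e : ℕ)
    (he : (e : ℝ) ≤ c₁ * n) :
    Real.exp (-(2 * a * c₁)) ≤ (1 - a / n) ^ e := by
  have hn' : (0 : ℝ) < n := by exact_mod_cast hn0
  have h1 : a / n ≤ 1 / 2 := by
    rw [div_le_iff₀ hn']; linarith
  have h2 := exp_neg_two_mul_le (a / n) (by positivity) h1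
  calc Real.exp (-(2 * a * c₁)) ≤ Real.exp (-(2 * (a / n)) * e) := by
        apply Real.exp_le_exp.2
        have : 2 * (a / n) * e ≤ 2 * (a / n) * (c₁ * n) :=
          mul_le_mul_of_nonneg_left he (by positivity)
        have e2 : 2 * (a / n) * (c₁ * n) = 2 * a * c₁ := by field_simp
        linarith
    _ = Real.exp (-(2 * (a / n))) ^ e := by
        rw [← Real.exp_nat_mul]; ring_nf
    _ ≤ (1 - a / n) ^ e := pow_le_pow_left₀ (Real.exp_pos _).le h2 e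

lemma GN_ge_half (N : ℕ) (z : ℝ) (hz0 : 0 ≤ z) (hz1 : z ≤ 1) (hN : 1 ≤ (N : ℝ) * z) :
    1 / 2 ≤ GN N z := by
  unfold GN
  have h1 : 1 - z ≤ Real.exp (-z) := by
    have := Real.add_one_le_exp (-z)
    linarith
  have h2 : (1 - z) ^ N ≤ Real.exp (-z) ^ N := pow_le_pow_left₀ (by linarith) h1 N
  have h3 : Real.exp (-z) ^ N = Real.exp (-(N * z)) := by
    rw [← Real.exp_nat_mul]; ring_nf
  have h4 : Real.exp (-(N * z)) ≤ Real.exp (-1) := Real.exp_le_exp.2 (by linarith)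
  have h5 : Real.exp (-1) ≤ 1 / 2 := by
    rw [Real.exp_neg]
    have := Real.add_one_le_exp (1 : ℝ)
    rw [inv_le_comm₀ (Real.exp_pos _) (by norm_num)]
    norm_num
    linarith
  rw [h3] at h2
  linarith

/-- choice of the number of inner samples -/
lemma exists_N0 (θ : ℝ) (hθ0 : 0 < θ) (hθ1 : θ ≤ 1) (q d : ℕ) (hq : 1 ≤ q) :
    ∃ N₀ : ℕ, 1 / 2 ≤ GN (N₀ ^ q) (θ ^ d) ∧
      (N₀ : ℝ) ≤ 2 * Real.exp (((d : ℝ) / q + 1) * (-Real.log θ)) := by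
  set R2 := d / q + 1 with hR2
  have hinv : 1 ≤ θ⁻¹ := (one_le_inv₀ hθ0).2 hθ1
  refine ⟨⌈(θ⁻¹) ^ R2⌉₊, ?_, ?_⟩
  · apply GN_ge_half
    · positivity
    · exact pow_le_one₀ hθ0.le hθ1
    · have h1 : (θ⁻¹) ^ R2 ≤ (⌈(θ⁻¹) ^ R2⌉₊ : ℝ) := Nat.le_ceil _
      have h2 : ((θ⁻¹) ^ R2) ^ q ≤ (⌈(θ⁻¹) ^ R2⌉₊ : ℝ) ^ q :=
        pow_le_pow_left₀ (by positivity) h1 q
      have h3 : d ≤ R2 * q := by
        rw [hR2]
        have := Nat.lt_div_mul_add (a := d) (b := q) (by omega)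
        nlinarith
      have h4 : (θ⁻¹) ^ d ≤ ((θ⁻¹) ^ R2) ^ q := by
        rw [← pow_mul]
        exact pow_le_pow_right₀ hinv h3
      push_cast
      calc (1 : ℝ) = (θ⁻¹) ^ d * θ ^ d := by
            rw [← mul_pow, inv_mul_cancel₀ hθ0.ne', one_pow]
        _ ≤ (⌈(θ⁻¹) ^ R2⌉₊ : ℝ) ^ q * θ ^ d :=
            mul_le_mul_of_nonneg_right (h4.trans h2) (by positivity)
  · have h1 : (⌈(θ⁻¹) ^ R2⌉₊ : ℝ) < (θ⁻¹) ^ R2 + 1 := Nat.ceil_lt_add_one (by positivity)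
    have h2 : 1 ≤ (θ⁻¹) ^ R2 := one_le_pow₀ hinv
    have h3 : (θ⁻¹) ^ R2 = Real.exp ((R2 : ℝ) * (-Real.log θ)) := by
      rw [Real.exp_nat_mul, Real.exp_neg, Real.exp_log hθ0]
    have h4 : (R2 : ℝ) ≤ (d : ℝ) / q + 1 := by
      rw [hR2]
      push_cast
      have : ((d / q : ℕ) : ℝ) ≤ (d : ℝ) / q := Nat.cast_div_le
      linarith
    have h5 : 0 ≤ -Real.log θ := by
      have := Real.log_nonpos hθ0.le hθ1
      linarith
    have h6 : Real.exp ((R2 : ℝ) * (-Real.log θ))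
        ≤ Real.exp (((d : ℝ) / q + 1) * (-Real.log θ)) :=
      Real.exp_le_exp.2 (mul_le_mul_of_nonneg_right h4 h5)
    rw [h3] at h2
    linarith

/-- the Stirling factor -/
lemma stirling_factor (R : ℕ) (hR : 1 ≤ R) (K y : ℝ) (hy1 : (R : ℝ) ≤ y) (hy2 : y ≤ R + K) :
    (R.factorial : ℝ) / y ^ R * Real.exp y ≤ Real.exp (K + 1) * R := by
  have hR0 : (0 : ℝ) < R := by exact_mod_cast hR
  have hy0 : 0 < y := lt_of_lt_of_le hR0 hy1
  have h1 := factorial_exp_le R hR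
  have h2 : (R : ℝ) ^ R ≤ y ^ R := pow_le_pow_left₀ hR0.le hy1 R
  have h3 : Real.exp y ≤ Real.exp R * Real.exp K := by
    rw [← Real.exp_add]; exact Real.exp_le_exp.2 hy2
  rw [div_mul_eq_mul_div, div_le_iff₀ (by positivity)]
  calc (R.factorial : ℝ) * Real.exp y ≤ (R.factorial : ℝ) * (Real.exp R * Real.exp K) :=
        mul_le_mul_of_nonneg_left h3 (by positivity)
    _ = ((R.factorial : ℝ) * Real.exp R) * Real.exp K := by ring
    _ ≤ (Real.exp 1 * R * (R : ℝ) ^ R) * Real.exp K :=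
        mul_le_mul_of_nonneg_right h1 (Real.exp_pos _).le
    _ = Real.exp (K + 1) * R * (R : ℝ) ^ R := by rw [Real.exp_add]; ring
    _ ≤ Real.exp (K + 1) * R * y ^ R := mul_le_mul_of_nonneg_left h2 (by positivity)

end Vale.Agent.P170
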