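import Vale.Agent.P170.UB.Mix

namespace Vale.Agent.P170

open Finset

section abstract_rec

/-- auxiliary Pascal-type recursion -/
noncomputable def Brec (U : ℕ → ℕ → ℕ → ℝ) (κ : ℝ) : ℕ → ℕ → ℕ → ℕ → ℝ
  | 0, s, t, d => U s t d
  | R + 1, s, t, d => Brec U κ R s (t + 1) d + κ * Brec U κ R s t (d + 1)

lemma Brec_nonneg (U : ℕ → ℕ → ℕ → ℝ) (κ : ℝ) (hκ : 0 ≤ κ) (hU : ∀ s t d, 0 ≤ U s t d) :
    ∀ R s t d, 0 ≤ Brec U κ R s t d := by
  intro R
  induction R with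
  | zero => intro s t d; exact hU s t d
  | succ R ih =>
    intro s t d
    simp only [Brec]
    exact add_nonneg (ih _ _ _) (mul_nonneg hκ (ih _ _ _))

lemma Brec_upper (U : ℕ → ℕ → ℕ → ℝ) (κ K : ℝ) (hκ : 0 ≤ κ) (hK : 0 ≤ K)
    (hstep : ∀ s t d, U s (t + 1) d + κ * U s t (d + 1) ≤ K * U (s + 1) t d) :
    ∀ R s t d, Brec U κ R s t d ≤ K ^ R * U (s + R) t d := by
  intro R
  induction R with
  | zero => intro s t d; simp [Brec]
  | succ R ih =>
    intro s t d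
    simp only [Brec]
    have h1 := ih s (t + 1) d
    have h2 := mul_le_mul_of_nonneg_left (ih s t (d + 1)) hκ
    have h3 := mul_le_mul_of_nonneg_left (hstep (s + R) t d) (pow_nonneg hK R)
    have e : s + (R + 1) = s + R + 1 := by ring
    rw [e, pow_succ]
    nlinarith

lemma Brec_lower (U : ℕ → ℕ → ℕ → ℝ) (κ : ℝ) (hκ : 0 ≤ κ) (hU : ∀ s t d, 0 ≤ U s t d) :
    ∀ R i j, i + j = R → ∀ s t d,
      ((R.choose i : ℕ) : ℝ) * κ ^ j * U s (t + i) (d + j) ≤ Brec U κ R s t d := by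
  intro R
  induction R with
  | zero =>
    intro i j hij s t d
    have hi : i = 0 := by omega
    have hj : j = 0 := by omega
    subst hi; subst hj
    simp [Brec]
  | succ R ih =>
    intro i j hij s t d
    simp only [Brec]
    have hB := Brec_nonneg U κ hκ hU R
    rcases i with _ | i
    · rcases j with _ | j
      · omega
      · have h := ih 0 j (by omega) s t (d + 1)
        have h2 := mul_le_mul_of_nonneg_left h hκ
        have e : d + 1 + j = d + (j + 1) := by ring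
        rw [e] at h2
        simp only [Nat.choose_zero_right, Nat.cast_one, one_mul, add_zero] at h2 ⊢
        have := hB s (t + 1) d
        rw [pow_succ]
        nlinarith
    · rcases j with _ | j
      · have h := ih i 0 (by omega) s (t + 1) d
        have hR : R = i := by omega
        subst hR
        have e : t + 1 + R = t + (R + 1) := by ring
        rw [e] at h
        simp only [Nat.choose_self, Nat.cast_one, one_mul, add_zero, pow_zero, mul_one] at h ⊢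
        have := mul_nonneg hκ (hB s t (d + 1))
        linarith
      · have h1 := ih i (j + 1) (by omega) s (t + 1) d
        have h2 := mul_le_mul_of_nonneg_left (ih (i + 1) j (by omega) s t (d + 1)) hκ
        have e1 : t + 1 + i = t + (i + 1) := by ring
        have e2 : d + 1 + j = d + (j + 1) := by ring
        rw [e1] at h1
        rw [e2] at h2
        rw [Nat.choose_succ_succ]
        push_cast
        have e3 : κ ^ (j + 1) = κ * κ ^ j := by ring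
        rw [e3] at h1 ⊢
        nlinarith

lemma abstract_rec (U : ℕ → ℕ → ℕ → ℝ) (κ K : ℝ) (hκ : 0 ≤ κ) (hK : 0 ≤ K)
    (hU : ∀ s t d, 0 ≤ U s t d)
    (hstep : ∀ s t d, U s (t + 1) d + κ * U s t (d + 1) ≤ K * U (s + 1) t d) (i j : ℕ) :
    (((i + j).choose i : ℕ) : ℝ) * κ ^ j * U 0 i j ≤ K ^ (i + j) * U (i + j) 0 0 := by
  have h1 := Brec_lower U κ hκ hU (i + j) i j rfl 0 0 0
  have h2 := Brec_upper U κ K hκ hK hstep (i + j) 0 0 0
  simp only [zero_add] at h1 h2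
  exact h1.trans h2

end abstract_rec

section functionals
variable {Ω : Type}

def Rel3 (κ K : ℝ) (Ψ₁ Ψ₂ Ψ₃ : (Set Ω → ℝ) → Set Ω → ℝ) : Prop :=
  ∀ φ, IsMix φ → ∀ X, Ψ₁ φ X + κ * Ψ₂ φ X ≤ K * Ψ₃ φ X

lemma rel3_TC {C : Type} [Fintype C] (hc : C → Set Ω) {κ K : ℝ}
    {Ψ₁ Ψ₂ Ψ₃ : (Set Ω → ℝ) → Set Ω → ℝ} (h : Rel3 κ K Ψ₁ Ψ₂ Ψ₃) :
    Rel3 κ K (TC hc Ψ₁) (TC hc Ψ₂) (TC hc Ψ₃) := by
  intro φ hφ X
  unfold TC
  rw [← mul_div_assoc, ← mul_div_assoc, ← add_div, Finset.mul_sum, Finset.mul_sum,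
    ← Finset.sum_add_distrib]
  apply div_le_div_of_nonneg_right _ (Nat.cast_nonneg _)
  exact Finset.sum_le_sum (fun c _ => h φ hφ _)

lemma rel3_TH {L : Type} [Fintype L] (η : ℝ) (h0 : 0 ≤ η) (h1 : η ≤ 1) (hl : L → Set Ω) {κ K : ℝ}
    {Ψ₁ Ψ₂ Ψ₃ : (Set Ω → ℝ) → Set Ω → ℝ} (h : Rel3 κ K Ψ₁ Ψ₂ Ψ₃) :
    Rel3 κ K (TH η hl Ψ₁) (TH η hl Ψ₂) (TH η hl Ψ₃) := by
  intro φ hφ X
  unfold TH
  rw [← mul_div_assoc, ← mul_div_assoc, ← add_div, Finset.mul_sum, Finset.mul_sum,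
    ← Finset.sum_add_distrib]
  apply div_le_div_of_nonneg_right _ (Nat.cast_nonneg _)
  exact Finset.sum_le_sum (fun l _ => h _ (isMix_fld η h0 h1 _ hφ) _)

lemma rel3_TC_iter {C : Type} [Fintype C] (hc : C → Set Ω) {κ K : ℝ}
    {Ψ₁ Ψ₂ Ψ₃ : (Set Ω → ℝ) → Set Ω → ℝ} (h : Rel3 κ K Ψ₁ Ψ₂ Ψ₃) (t : ℕ) :
    Rel3 κ K ((TC hc)^[t] Ψ₁) ((TC hc)^[t] Ψ₂) ((TC hc)^[t] Ψ₃) := by
  induction t with
  | zero => exact h
  | succ t ih =>
    simp only [Function.iterate_succ_apply']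
    exact rel3_TC hc ih

lemma rel3_TH_iter {L : Type} [Fintype L] (η : ℝ) (h0 : 0 ≤ η) (h1 : η ≤ 1) (hl : L → Set Ω)
    {κ K : ℝ} {Ψ₁ Ψ₂ Ψ₃ : (Set Ω → ℝ) → Set Ω → ℝ} (h : Rel3 κ K Ψ₁ Ψ₂ Ψ₃) (s : ℕ) :
    Rel3 κ K ((TH η hl)^[s] Ψ₁) ((TH η hl)^[s] Ψ₂) ((TH η hl)^[s] Ψ₃) := by
  induction s with
  | zero => exact h
  | succ s ih =>
    simp only [Function.iterate_succ_apply']
    exact rel3_TH η h0 h1 hl ih

lemma TC_TH_comm {C L : Type} [Fintype C] [Fintype L] (hc : C → Set Ω) (η : ℝ) (hl : L → Set Ω) :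
    Function.Commute (TC hc) (TH η hl) := by
  intro Ψ
  funext φ X
  unfold TC TH
  rw [← Finset.sum_div, ← Finset.sum_div, div_div, div_div, mul_comm (Fintype.card L : ℝ),
    Finset.sum_comm]

/-- the interpolating functional -/
noncomputable def Uf {C L : Type} [Fintype C] [Fintype L] (hc : C → Set Ω) (η : ℝ)
    (hl : L → Set Ω) (N : ℕ) (θ : ℝ) (s t d : ℕ) : (Set Ω → ℝ) → Set Ω → ℝ :=
  (TC hc)^[t] ((TH η hl)^[s] (Psi N θ d))

lemma Uf_step {C L : Type} [Fintype C] [Fintype L] (hc : C → Set Ω) (η : ℝ) (h0 : 0 ≤ η)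
    (h1 : η ≤ 1) (hl : L → Set Ω) (N : ℕ) (θ κ K : ℝ)
    (hbase : ∀ d, Rel3 κ K (TC hc (Psi N θ d)) (Psi N θ (d + 1)) (TH η hl (Psi N θ d)))
    (s t d : ℕ) :
    Rel3 κ K (Uf hc η hl N θ s (t + 1) d) (Uf hc η hl N θ s t (d + 1))
      (Uf hc η hl N θ (s + 1) t d) := by
  unfold Uf
  rw [Function.iterate_succ_apply, Function.iterate_succ_apply (TH η hl),
    ((TC_TH_comm hc η hl).iterate_right s) (Psi N θ d)]
  exact rel3_TC_iter hc (rel3_TH_iter η h0 h1 hl (hbase d) s) t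

def NN (Ψ : (Set Ω → ℝ) → Set Ω → ℝ) : Prop := ∀ φ, IsMix φ → ∀ X, 0 ≤ Ψ φ X

lemma nn_Psi (N : ℕ) (θ : ℝ) (hθ0 : 0 ≤ θ) (hθ1 : θ ≤ 1) (d : ℕ) : NN (Psi (Ω := Ω) N θ d) := by
  intro φ hφ X
  obtain ⟨ι, _, P, Y, hP, hsum, hrep⟩ := hφ
  have hφ1 : φ X ≤ 1 := by
    rw [hrep]
    calc ∑ i, P i * ind (X ∩ Y i) ≤ ∑ i, P i := by
          refine Finset.sum_le_sum (fun i _ => ?_)
          have := mul_le_mul_of_nonneg_left (ind_le_one (X ∩ Y i)) (hP i)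
          linarith
      _ ≤ 1 := hsum
  have hφ0 : 0 ≤ φ X := by
    rw [hrep]
    exact Finset.sum_nonneg (fun i _ => mul_nonneg (hP i) (ind_nonneg _))
  have a1 : θ ^ d ≤ 1 := pow_le_one₀ hθ0 hθ1
  have a0 : 0 ≤ θ ^ d := by positivity
  exact GN_nonneg N _ (mul_nonneg a0 hφ0) (by nlinarith)

lemma nn_TC {C : Type} [Fintype C] (hc : C → Set Ω) {Ψ : (Set Ω → ℝ) → Set Ω → ℝ} (h : NN Ψ) :
    NN (TC hc Ψ) := by
  intro φ hφ X
  unfold TC
  exact div_nonneg (Finset.sum_nonneg (fun c _ => h φ hφ _)) (Nat.cast_nonneg _)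

lemma nn_TH {L : Type} [Fintype L] (η : ℝ) (h0 : 0 ≤ η) (h1 : η ≤ 1) (hl : L → Set Ω)
    {Ψ : (Set Ω → ℝ) → Set Ω → ℝ} (h : NN Ψ) : NN (TH η hl Ψ) := by
  intro φ hφ X
  unfold TH
  exact div_nonneg (Finset.sum_nonneg (fun l _ => h _ (isMix_fld η h0 h1 _ hφ) _))
    (Nat.cast_nonneg _)

lemma nn_Uf {C L : Type} [Fintype C] [Fintype L] (hc : C → Set Ω) (η : ℝ) (h0 : 0 ≤ η)
    (h1 : η ≤ 1) (hl : L → Set Ω) (N : ℕ) (θ : ℝ) (hθ0 : 0 ≤ θ) (hθ1 : θ ≤ 1) (s t d : ℕ) :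
    NN (Uf hc η hl N θ s t d) := by
  unfold Uf
  have hs : NN ((TH η hl)^[s] (Psi N θ d)) := by
    induction s with
    | zero => exact nn_Psi N θ hθ0 hθ1 d
    | succ s ih =>
      rw [Function.iterate_succ_apply']
      exact nn_TH η h0 h1 hl ih
  induction t with
  | zero => exact hs
  | succ t ih =>
    rw [Function.iterate_succ_apply']
    exact nn_TC hc ih

lemma Uf_zero_fields {C L : Type} [Fintype C] [Fintype L] (hc : C → Set Ω) (η : ℝ)
    (hl : L → Set Ω) (N : ℕ) (θ : ℝ) (t d : ℕ) :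
    ∀ X, Uf hc η hl N θ 0 t d ind X = GN N (θ ^ d) * iter hc t X := by
  unfold Uf
  induction t with
  | zero =>
    intro X
    simp only [Function.iterate_zero, id]
    unfold Psi
    rw [GN_mul_ind]
    rfl
  | succ t ih =>
    intro X
    rw [Function.iterate_succ_apply', iter_succ]
    have e : TC hc ((TC hc)^[t] ((TH η hl)^[0] (Psi N θ d))) ind X
        = (∑ c : C, ((TC hc)^[t] ((TH η hl)^[0] (Psi N θ d))) ind (X ∩ hc c))
          / (Fintype.card C : ℝ) := rfl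
    rw [e]
    unfold avg
    rw [Finset.sum_congr rfl (fun c _ => ih (X ∩ hc c)), ← Finset.mul_sum, mul_div_assoc]

end functionals

section main_rec
variable {V : Type} [DecidableEq V] [Fintype V]

/-- the consequence of the interpolation: `i` clauses against `i + j` fields -/
lemma interp_bound (m : ℕ) (hkn : m + 1 ≤ Fintype.card V) (u : ℝ) (hu0 : 0 ≤ u) (hu1 : u < 1)
    (hκ : 0 ≤ (m : ℝ) - epsn (Fintype.card V) m / (1 - u ^ (m + 1))) (N i j : ℕ) :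
    (((i + j).choose i : ℕ) : ℝ) * ((m : ℝ) - epsn (Fintype.card V) m / (1 - u ^ (m + 1))) ^ j
        * (GN N ((1 - u ^ (m + 1)) ^ j) * prV V (m + 1) i)
      ≤ ((m : ℝ) + 1) ^ (i + j) *
        ((TH (u ^ m) (lit : V × Bool → Set (V → Bool)))^[i + j] (Psi N (1 - u ^ (m + 1)) 0))
          ind Set.univ := by
  set θ := 1 - u ^ (m + 1) with hθ
  have hup : u ^ (m + 1) < 1 := pow_lt_one₀ hu0 hu1 (by omega)
  have hup0 : 0 ≤ u ^ (m + 1) := by positivity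
  have hθ0 : 0 ≤ θ := by rw [hθ]; linarith
  have hθ1 : θ ≤ 1 := by rw [hθ]; linarith
  have hη0 : 0 ≤ u ^ m := by positivity
  have hη1 : u ^ m ≤ 1 := pow_le_one₀ hu0 hu1.le
  set U : ℕ → ℕ → ℕ → ℝ := fun s t d =>
    Uf (hset : Clause V (m + 1) → Set (V → Bool)) (u ^ m) (lit : V × Bool → Set (V → Bool))
      N θ s t d ind Set.univ with hU
  have hbase : ∀ d, Rel3 ((m : ℝ) - epsn (Fintype.card V) m / θ) ((m : ℝ) + 1)
      (TC (hset : Clause V (m + 1) → Set (V → Bool)) (Psi N θ d)) (Psi N θ (d + 1))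
      (TH (u ^ m) (lit : V × Bool → Set (V → Bool)) (Psi N θ d)) := by
    intro d φ hφ X
    exact one_step m hkn u hu0 hu1 N d φ hφ X
  have h := abstract_rec U _ ((m : ℝ) + 1) hκ (by positivity)
    (fun s t d => nn_Uf _ _ hη0 hη1 _ N θ hθ0 hθ1 s t d ind isMix_ind Set.univ)
    (fun s t d => Uf_step _ _ hη0 hη1 _ N θ _ _ hbase s t d ind isMix_ind Set.univ) i j
  have e1 : U 0 i j = GN N (θ ^ j) * prV V (m + 1) i := by
    simp only [hU]
    rw [Uf_zero_fields]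
    rfl
  have e2 : U (i + j) 0 0
      = ((TH (u ^ m) (lit : V × Bool → Set (V → Bool)))^[i + j] (Psi N θ 0)) ind Set.univ := rfl
  rw [e1, e2] at h
  exact h

end main_rec

end Vale.Agent.P170
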